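import Vale.Agent.P070h8.Hil

/-! The countable subring `S` of `B(ℓ²)` and its closure. -/

namespace Vale.Agent.P070h8

open Filter Topology
open scoped InnerProductSpace ComplexOrder

noncomputable abbrev H0 := lp (fun _ : ℕ => ℂ) 2
noncomputable abbrev B0 := H0 →L[ℂ] H0

def FinRk (p : B0) : Prop := FiniteDimensional ℂ p.range

noncomputable def b0 : HilbertBasis ℕ ℂ H0 := default

lemma not_finRk (T : B0) (v : ℕ → H0) (hv : LinearIndependent ℂ v) (h : ∀ n, v n ∈ T.range) : ¬ FinRk T := by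
  intro hT
  have : Module.Finite ℂ T.range := hT
  exact Module.Finite.not_linearIndependent_of_infinite (R := ℂ) (fun n => (⟨v n, h n⟩ : T.range))
    (LinearIndependent.of_comp T.range.subtype hv)

lemma countable_on {ι : Type} (v : ι → H0) (hv : Orthonormal ℂ v) : Countable ι := by
  rw [← Set.countable_univ_iff]
  refine (Set.countable_iUnion fun n => (hv.inner_products_summable (b0 n)).countable_support).mono fun i _ => ?_
  by_contra hn
  simp only [Set.mem_iUnion, Function.mem_support, not_exists, not_not] at hn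
  have h0 : b0.repr (v i) = 0 := by
    ext n
    have := hn n
    rw [b0.repr_apply_apply, ← inner_conj_symm]
    simp only [pow_eq_zero_iff (two_ne_zero), norm_eq_zero] at this
    simp [this]
  have := hv.1 i
  rw [(map_eq_zero_iff _ b0.repr.injective).mp h0] at this
  simp at this

lemma iso (p : B0) (hp : IsStarProjection p) (h : ¬ FinRk p) : ∃ s : B0, star s * s = 1 ∧ s * star s = p := by
  have hK : ∀ x, x ∈ p.range ↔ p x = x := by
    intro x
    refine ⟨?_, fun hx => ⟨x, hx⟩⟩
    rintro ⟨y, rfl⟩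
    exact congrArg (fun T : B0 => T y) hp.isIdempotentElem.eq
  have hc : IsClosed (p.range : Set H0) := by
    have : (p.range : Set H0) = {x | p x = x} := Set.ext hK
    rw [this]; exact isClosed_eq p.continuous continuous_id
  have : CompleteSpace p.range := hc.completeSpace_coe
  obtain ⟨w, b, -⟩ := exists_hilbertBasis ℂ p.range
  have : Countable w := countable_on _ (b.orthonormal.comp_linearIsometry p.range.subtypeₗᵢ)
  have : Infinite w := by
    by_contra hn
    rw [not_infinite_iff_finite] at hn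
    have := Fintype.ofFinite w
    exact h (b.toOrthonormalBasis.toBasis.finiteDimensional_of_finite)
  obtain ⟨e⟩ : Nonempty (ℕ ≃ w) := nonempty_equiv_of_countable
  let c : HilbertBasis ℕ ℂ p.range := HilbertBasis.mk (b.orthonormal.comp e e.injective)
    (by rw [e.surjective.range_comp, b.dense_span])
  let s : H0 →ₗᵢ[ℂ] H0 := p.range.subtypeₗᵢ.comp c.repr.symm.toLinearIsometry
  have h1 : star s.toContinuousLinearMap * s.toContinuousLinearMap = 1 := by
    ext1 x
    refine ext_inner_left ℂ fun y => ?_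
    rw [mul_apply_eq_comp, inner_star_right]; exact s.inner_map_map y x
  refine ⟨s.toContinuousLinearMap, h1, ?_⟩
  ext1 x
  let y := c.repr ⟨p x, x, rfl⟩
  have hy : s y = p x := by simp [s, y]
  have h2 : star s.toContinuousLinearMap x = y := by
    refine ext_inner_left ℂ fun z => ?_
    have hz : p (s z) = s z := (hK _).mp (c.repr.symm z).2
    rw [inner_star_right, ← s.inner_map_map z y, hy, ← hp.isSelfAdjoint.star_eq, inner_star_right]
    simp [hz]
  rw [mul_apply_eq_comp, h2]; exact hy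

lemma two_iso : ∃ s t : B0, star s * s = 1 ∧ star t * t = 1 ∧ star s * t = 0 := by
  let K := (Submodule.span ℂ (Set.range fun n => b0 (2 * n + 1)))ᗮ
  have hp : IsStarProjection K.starProjection := isStarProjection_starProjection
  have li := b0.orthonormal.linearIndependent
  obtain ⟨s, s1, s2⟩ := iso _ hp (not_finRk _ (fun n => b0 (2 * n)) (li.comp _ fun a b h => by simpa using h) fun n => by
    rw [Submodule.range_starProjection, Submodule.mem_orthogonal]
    intro u hu
    induction hu using Submodule.span_induction with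
    | mem x hx => obtain ⟨m, rfl⟩ := hx; exact b0.orthonormal.2 (by omega)
    | zero => simp
    | add x y _ _ hx hy => rw [inner_add_left, hx, hy, add_zero]
    | smul a x _ hx => rw [inner_smul_left, hx, mul_zero])
  obtain ⟨t, t1, t2⟩ := iso _ hp.one_sub (not_finRk _ (fun n => b0 (2 * n + 1))
    (li.comp _ fun a b h => by simpa using h) fun n => ⟨b0 (2 * n + 1), by
      have : K.starProjection (b0 (2 * n + 1)) = 0 := (Submodule.starProjection_apply_eq_zero_iff K).mpr
        (Submodule.le_orthogonal_orthogonal _ (Submodule.subset_span ⟨n, rfl⟩))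
      simp [this]⟩)
  refine ⟨s, t, s1, t1, ?_⟩
  calc star s * t = (star s * s) * star s * t * (star t * t) := by rw [s1, t1, one_mul, mul_one]
    _ = star s * ((s * star s) * (t * star t)) * t := by simp only [mul_assoc]
    _ = 0 := by rw [s2, t2, mul_sub, mul_one, hp.isIdempotentElem.eq, sub_self, mul_zero, zero_mul]

/-- a finite rank operator kills a unit vector -/
lemma FinRk.ker {q : B0} (hq : FinRk q) (x : B0) : ∃ η : H0, ‖η‖ = 1 ∧ q (x η) = 0 := by
  have : ∃ η : H0, η ≠ 0 ∧ q (x η) = 0 := by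
    by_contra hn
    push Not at hn
    have hi : Function.Injective (q * x) := (injective_iff_map_eq_zero _).mpr fun η h => by
      by_contra h0; exact hn η h0 h
    exact not_finRk q (fun n => (q * x) (b0 n))
      (b0.orthonormal.linearIndependent.map' (q * x : B0).toLinearMap (LinearMap.ker_eq_bot.mpr hi))
      (fun n => ⟨_, rfl⟩) hq
  obtain ⟨η, h0, h⟩ := this
  refine ⟨((‖η‖⁻¹ : ℝ) : ℂ) • η, ?_, by simp [h]⟩
  rw [norm_smul]; simp [norm_ne_zero_iff.mpr h0]

lemma FinRk.add {p q : B0} (hp : FinRk p) (hq : FinRk q) : FinRk (p + q) := by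
  have : FiniteDimensional ℂ p.range := hp
  have : FiniteDimensional ℂ q.range := hq
  refine Submodule.finiteDimensional_of_le (S₂ := p.range ⊔ q.range) ?_
  rintro _ ⟨x, rfl⟩
  exact Submodule.add_mem_sup ⟨x, rfl⟩ ⟨x, rfl⟩

lemma not_finRk_iso {s : B0} (x : B0) (hs : star s * s = 1) {p : B0} (h : p * x = s) : ¬ FinRk p := fun hp => by
  obtain ⟨η, h1, h2⟩ := hp.ker x
  rw [← mul_apply_eq_comp, h] at h2
  have : (star s * s) η = 0 := by rw [mul_apply_eq_comp, h2, map_zero]
  rw [hs, one_apply_eq_self] at this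
  simp [this] at h1

structure Sys where
  S : Subring B0
  cnt : (S : Set B0).Countable
  star_mem : ∀ x ∈ S, star x ∈ S
  sc : ∀ a b : ℚ, (((a : ℂ) + (b : ℂ) * Complex.I) • (1 : B0)) ∈ S
  sqrt : ∀ x ∈ S, 0 ≤ x → ∃ y ∈ S, x = star y * y
  spec : ∀ f ∈ S, ∀ k ∈ S, IsStarProjection f → star k = k →
    ∃ g ∈ S, IsStarProjection g ∧ f * g = g ∧ g * (f * k * f) = (f * k * f) * g ∧
      (∀ x, g x = x → (⟪x, k x⟫_ℂ).re ≤ 0) ∧ (∀ x, f x = x → g x = 0 → 0 ≤ (⟪x, k x⟫_ℂ).re)
  iso : ∀ p ∈ S, IsStarProjection p → ¬ FinRk p → ∃ s ∈ S, star s * s = 1 ∧ s * star s = p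
  two : ∃ s ∈ S, ∃ t ∈ S, star s * s = 1 ∧ star t * t = 1 ∧ star s * t = 0

lemma exists_closed {X : Type*} (S0 : Set X) (h0 : S0.Countable) (F : X → X → Set X) (hF : ∀ x y, (F x y).Countable) :
    ∃ S : Set X, S.Countable ∧ S0 ⊆ S ∧ ∀ x ∈ S, ∀ y ∈ S, F x y ⊆ S := by
  let T : ℕ → Set X := fun n => Nat.rec S0 (fun _ U => U ∪ ⋃ x ∈ U, ⋃ y ∈ U, F x y) n
  have hT : ∀ n, T (n + 1) = T n ∪ ⋃ x ∈ T n, ⋃ y ∈ T n, F x y := fun _ => rfl
  have hc : ∀ n, (T n).Countable := by
    intro n
    induction n with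
    | zero => exact h0
    | succ n ih => rw [hT]; exact ih.union (ih.biUnion fun x _ => ih.biUnion fun y _ => hF x y)
  have hm : Monotone T := monotone_nat_of_le_succ fun n => by rw [hT]; exact Set.subset_union_left
  refine ⟨⋃ n, T n, Set.countable_iUnion hc, Set.subset_iUnion T 0, fun x hx y hy z hz => ?_⟩
  obtain ⟨n, hn⟩ := Set.mem_iUnion.mp hx
  obtain ⟨m, hm'⟩ := Set.mem_iUnion.mp hy
  refine Set.mem_iUnion.mpr ⟨max n m + 1, ?_⟩
  rw [hT]
  exact Or.inr (Set.mem_biUnion (hm (le_max_left n m) hn) (Set.mem_biUnion (hm (le_max_right n m) hm') hz))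

theorem exists_sys : Nonempty Sys := by
  obtain ⟨s, t, h1, h2, h3⟩ := two_iso
  have e1 : ∀ x : B0, ∃ y, 0 ≤ x → x = star y * y := fun x => by
    by_cases h : 0 ≤ x
    · obtain ⟨y, hy⟩ := exists_sqrt h; exact ⟨y, fun _ => hy⟩
    · exact ⟨0, fun h' => absurd h' h⟩
  have e2 : ∀ f k : B0, ∃ g : B0, IsStarProjection f → star k = k →
      IsStarProjection g ∧ f * g = g ∧ g * (f * k * f) = (f * k * f) * g ∧
      (∀ x, g x = x → (⟪x, k x⟫_ℂ).re ≤ 0) ∧ (∀ x, f x = x → g x = 0 → 0 ≤ (⟪x, k x⟫_ℂ).re) := fun f k => by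
    by_cases h : IsStarProjection f ∧ star k = k
    · obtain ⟨g, hg⟩ := spec f k h.1 h.2; exact ⟨g, fun _ _ => hg⟩
    · exact ⟨0, fun h' h'' => absurd ⟨h', h''⟩ h⟩
  have e3 : ∀ p : B0, ∃ s : B0, IsStarProjection p → ¬ FinRk p → star s * s = 1 ∧ s * star s = p := fun p => by
    by_cases h : IsStarProjection p ∧ ¬ FinRk p
    · obtain ⟨g, hg⟩ := iso p h.1 h.2; exact ⟨g, fun _ _ => hg⟩
    · exact ⟨0, fun h' h'' => absurd ⟨h', h''⟩ h⟩
  choose F1 hF1 using e1
  choose F2 hF2 using e2
  choose F3 hF3 using e3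
  obtain ⟨S, hc, h0, hF⟩ := exists_closed
    ({s, t} ∪ Set.range fun q : ℚ × ℚ => (((q.1 : ℂ) + (q.2 : ℂ) * Complex.I) • (1 : B0)))
    ((Set.toFinite _).countable.union (Set.countable_range _))
    (fun x y => {x + y, x * y, -x, star x, F1 x, F2 x y, F3 x}) fun x y => (Set.toFinite _).countable
  have sc : ∀ a b : ℚ, (((a : ℂ) + (b : ℂ) * Complex.I) • (1 : B0)) ∈ S := fun a b => h0 (Or.inr ⟨(a, b), rfl⟩)
  exact ⟨{ S := { carrier := S
                  mul_mem' := fun ha hb => hF _ ha _ hb (by simp)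
                  one_mem' := by simpa using sc 1 0
                  add_mem' := fun ha hb => hF _ ha _ hb (by simp)
                  zero_mem' := by simpa using sc 0 0
                  neg_mem' := fun ha => hF _ ha _ ha (by simp) }
           cnt := hc
           star_mem := fun x hx => hF _ hx _ hx (by simp)
           sc := sc
           sqrt := fun x hx h => ⟨F1 x, hF _ hx _ hx (by simp), hF1 x h⟩
           spec := fun f hf k hk a b => ⟨F2 f k, hF _ hf _ hk (by simp), hF2 f k a b⟩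
           iso := fun p hp a b => ⟨F3 p, hF _ hp _ hp (by simp), hF3 p a b⟩
           two := ⟨s, h0 (by simp), t, h0 (by simp), h1, h2, h3⟩ }⟩

lemma dense_qi : DenseRange fun q : ℚ × ℚ => (q.1 : ℂ) + (q.2 : ℂ) * Complex.I := by
  have h := (Rat.denseRange_cast (𝕜 := ℝ)).prodMap (Rat.denseRange_cast (𝕜 := ℝ))
  have hs : Function.Surjective fun p : ℝ × ℝ => (p.1 : ℂ) + (p.2 : ℂ) * Complex.I :=
    fun z => ⟨(z.re, z.im), Complex.re_add_im z⟩
  exact hs.denseRange.comp h (by fun_prop)

/-- the norm closure of `S` -/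
noncomputable def Sys.A (Z : Sys) : StarSubalgebra ℂ B0 where
  carrier := closure (Z.S : Set B0)
  mul_mem' := fun ha hb => map_mem_closure₂ continuous_mul ha hb fun _ h _ h' => Z.S.mul_mem h h'
  add_mem' := fun ha hb => map_mem_closure₂ continuous_add ha hb fun _ h _ h' => Z.S.add_mem h h'
  algebraMap_mem' := fun c => by
    rw [Algebra.algebraMap_eq_smul_one]
    refine map_mem_closure (f := fun c : ℂ => c • (1 : B0)) (by fun_prop) (dense_qi c) ?_
    rintro _ ⟨q, rfl⟩
    exact Z.sc q.1 q.2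
  star_mem' := fun ha => map_mem_closure continuous_star ha Z.star_mem

lemma Sys.le (Z : Sys) {x : B0} (hx : x ∈ Z.S) : x ∈ Z.A := subset_closure hx

lemma Sys.approx (Z : Sys) (a : Z.A) {ε : ℝ} (hε : 0 < ε) : ∃ b : Z.A, (b : B0) ∈ Z.S ∧ ‖a - b‖ < ε := by
  obtain ⟨b, hb, h⟩ := Metric.mem_closure_iff.mp a.2 ε hε
  exact ⟨⟨b, Z.le hb⟩, hb, by rw [dist_eq_norm] at h; exact h⟩

end Vale.Agent.P070h8
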