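import Vale.Agent.P070h8.Good

/-! The direct sum of the GNS representations of a family of good points. -/

namespace Vale.Agent.P070h8

open Filter Topology UniformSpace
open scoped InnerProductSpace ComplexOrder

variable {Z : Sys}

namespace Good

variable (G : Good Z)

lemma psi_add (a b : Z.A) : G.psi (a + b) = G.psi a + G.psi b :=
  tendsto_nhds_unique (G.psi_lim _) (((G.psi_lim a).add (G.psi_lim b)).congr fun n => by simp)

lemma psi_smul (c : ℂ) (a : Z.A) : G.psi (c • a) = c * G.psi a :=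
  tendsto_nhds_unique (G.psi_lim _) (((G.psi_lim a).const_mul c).congr fun n => by simp)

lemma psi_zero : G.psi 0 = 0 := by simpa using G.psi_smul 0 0

lemma psi_star (a : Z.A) : G.psi (star a) = (starRingEnd ℂ) (G.psi a) :=
  tendsto_nhds_unique (G.psi_lim _) (((Complex.continuous_conj.tendsto _).comp (G.psi_lim a)).congr fun n => by
    simp [inner_star_right])

lemma psi_sq (a : Z.A) : Tendsto (fun n => ‖(a : B0) (G.eta n)‖ ^ 2) atTop (𝓝 (G.psi (star a * a)).re) :=
  ((Complex.continuous_re.tendsto _).comp (G.psi_lim (star a * a))).congr fun n => re_inner_star_mul (a : B0) _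

lemma psi_nonneg (a : Z.A) : 0 ≤ (G.psi (star a * a)).re := ge_of_tendsto' (G.psi_sq a) fun _ => sq_nonneg _

lemma psi_bound (a x : Z.A) : (G.psi (star (a * x) * (a * x))).re ≤ ‖a‖ ^ 2 * (G.psi (star x * x)).re := by
  refine le_of_tendsto_of_tendsto' (G.psi_sq (a * x)) ((G.psi_sq x).const_mul _) fun n => ?_
  rw [← mul_pow]
  gcongr
  exact (a : B0).le_opNorm _

lemma psi_one : G.psi 1 = 1 :=
  tendsto_nhds_unique (G.psi_lim _) (tendsto_const_nhds.congr fun n => by
    simp [inner_self_eq_norm_sq_to_K, G.norm_eta])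

lemma psi_f (n : ℕ) : (G.psi (star (G.f n - 1) * (G.f n - 1))).re = 0 := by
  refine tendsto_nhds_unique (G.psi_sq _) (tendsto_const_nhds.congr' ?_)
  filter_upwards [eventually_ge_atTop n] with m hm
  have e : (G.f n - 1) * G.s m = 0 := by rw [← G.f_s, ← mul_assoc, sub_mul, G.mono hm, one_mul, sub_self, zero_mul]
  have : ((G.f n - 1 : Z.A) : B0) (G.eta m) = 0 := congrArg (fun T : Z.A => (T : B0) (b0 0)) e
  rw [this]; simp

end Good

variable {ι : Type} (G : ι → Good Z)

def V (_G : ι → Good Z) : Type := ι →₀ Z.A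

noncomputable instance : AddCommGroup (V G) := inferInstanceAs (AddCommGroup (ι →₀ Z.A))
noncomputable instance : Module ℂ (V G) := inferInstanceAs (Module ℂ (ι →₀ Z.A))

noncomputable def toV : (ι →₀ Z.A) ≃ₗ[ℂ] V G := LinearEquiv.refl ℂ _

noncomputable def inn (x y : ι →₀ Z.A) : ℂ := ∑ i ∈ y.support, (G i).psi (star (x i) * y i)

lemma inn_eq (x y : ι →₀ Z.A) (s : Finset ι) (hs : y.support ⊆ s) :
    inn G x y = ∑ i ∈ s, (G i).psi (star (x i) * y i) :=
  Finset.sum_subset hs fun i _ hi => by rw [Finsupp.notMem_support_iff.mp hi, mul_zero, Good.psi_zero]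

lemma inn_conj (x y : ι →₀ Z.A) : (starRingEnd ℂ) (inn G y x) = inn G x y := by
  classical
  rw [inn_eq G y x (x.support ∪ y.support) Finset.subset_union_left,
    inn_eq G x y (x.support ∪ y.support) Finset.subset_union_right, map_sum]
  exact Finset.sum_congr rfl fun i _ => by rw [← Good.psi_star, star_mul, star_star]

lemma inn_nonneg (x : ι →₀ Z.A) : 0 ≤ RCLike.re (inn G x x) := by
  rw [inn, map_sum]
  exact Finset.sum_nonneg fun i _ => (G i).psi_nonneg _

lemma inn_add (x y z : ι →₀ Z.A) : inn G (x + y) z = inn G x z + inn G y z := by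
  rw [inn, inn, inn, ← Finset.sum_add_distrib]
  exact Finset.sum_congr rfl fun i _ => by rw [Finsupp.add_apply, star_add, add_mul, Good.psi_add]

lemma inn_smul (x y : ι →₀ Z.A) (r : ℂ) : inn G (r • x) y = (starRingEnd ℂ) r * inn G x y := by
  rw [inn, inn, Finset.mul_sum]
  exact Finset.sum_congr rfl fun i _ => by rw [Finsupp.smul_apply, star_smul, smul_mul_assoc, Good.psi_smul]; rfl

noncomputable abbrev core : PreInnerProductSpace.Core ℂ (V G) where
  inner x y := inn G ((toV G).symm x) ((toV G).symm y)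
  conj_inner_symm _ _ := inn_conj G _ _
  re_inner_nonneg _ := inn_nonneg G _
  add_left _ _ _ := inn_add G _ _ _
  smul_left _ _ _ := inn_smul G _ _ _

noncomputable instance : SeminormedAddCommGroup (V G) :=
  InnerProductSpace.Core.toSeminormedAddCommGroup (c := core G)
noncomputable instance : InnerProductSpace ℂ (V G) := InnerProductSpace.ofCore (core G)

lemma inner_V (x y : ι →₀ Z.A) : ⟪toV G x, toV G y⟫_ℂ = inn G x y := rfl

lemma norm_V (x : ι →₀ Z.A) (s : Finset ι) (hs : x.support ⊆ s) :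
    ‖toV G x‖ ^ 2 = ∑ i ∈ s, ((G i).psi (star (x i) * x i)).re := by
  rw [← inner_self_eq_norm_sq (𝕜 := ℂ), inner_V, inn_eq G x x s hs, map_sum]; rfl

noncomputable def lm (a : Z.A) : (ι →₀ Z.A) →ₗ[ℂ] (ι →₀ Z.A) := Finsupp.mapRange.linearMap (LinearMap.mul ℂ Z.A a)

lemma lm_apply (a : Z.A) (x : ι →₀ Z.A) (i : ι) : lm a x i = a * x i := rfl

lemma lm_supp (a : Z.A) (x : ι →₀ Z.A) : (lm a x).support ⊆ x.support := fun i hi => by
  rw [Finsupp.mem_support_iff] at hi ⊢
  intro h; rw [lm_apply, h, mul_zero] at hi; exact hi rfl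

lemma lm_bound (a : Z.A) (x : ι →₀ Z.A) : ‖toV G (lm a x)‖ ≤ ‖a‖ * ‖toV G x‖ := by
  refine le_of_sq_le_sq ?_ (by positivity)
  rw [mul_pow, norm_V G x _ subset_rfl, norm_V G _ x.support (lm_supp a x), Finset.mul_sum]
  exact Finset.sum_le_sum fun i _ => (G i).psi_bound a _

noncomputable def lV (a : Z.A) : V G →L[ℂ] V G :=
  ((toV G).toLinearMap ∘ₗ lm a ∘ₗ (toV G).symm.toLinearMap).mkContinuous ‖a‖ fun x => lm_bound G a _

lemma lV_apply (a : Z.A) (x : ι →₀ Z.A) : lV G a (toV G x) = toV G (lm a x) := rfl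

abbrev HU := Completion (V G)

lemma ext_HU {S T : HU G →L[ℂ] HU G} (h : ∀ x : ι →₀ Z.A, S (toV G x : V G) = T (toV G x : V G)) : S = T := by
  ext c
  induction c using Completion.induction_on with
  | hp => exact isClosed_eq S.continuous T.continuous
  | ih c => exact h ((toV G).symm c)

lemma cl_apply (a : Z.A) (x : ι →₀ Z.A) : (lV G a).completion (toV G x : V G) = (toV G (lm a x) : V G) := by
  simp [lV_apply]

lemma lm_one (x : ι →₀ Z.A) : lm 1 x = x := Finsupp.ext fun i => by rw [lm_apply, one_mul]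
lemma lm_mul (a b : Z.A) (x : ι →₀ Z.A) : lm (a * b) x = lm a (lm b x) :=
  Finsupp.ext fun i => by rw [lm_apply, lm_apply, lm_apply, mul_assoc]
lemma lm_add (a b : Z.A) (x : ι →₀ Z.A) : lm (a + b) x = lm a x + lm b x :=
  Finsupp.ext fun i => by rw [Finsupp.add_apply, lm_apply, lm_apply, lm_apply, add_mul]
lemma lm_smul (c : ℂ) (a : Z.A) (x : ι →₀ Z.A) : lm (c • a) x = c • lm a x :=
  Finsupp.ext fun i => by rw [Finsupp.smul_apply, lm_apply, lm_apply, smul_mul_assoc]

lemma inn_star (a : Z.A) (x y : ι →₀ Z.A) : inn G (lm (star a) x) y = inn G x (lm a y) := by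
  rw [inn_eq G x _ y.support (lm_supp a y), inn]
  refine Finset.sum_congr rfl fun i _ => congrArg (G i).psi ?_
  rw [lm_apply (star a), lm_apply a]
  generalize x i = u
  generalize y i = v
  rw [star_mul, star_star, mul_assoc]

noncomputable def cl (a : Z.A) : HU G →L[ℂ] HU G := (lV G a).completion

lemma cl_apply' (a : Z.A) (x : ι →₀ Z.A) : cl G a (toV G x : V G) = (toV G (lm a x) : V G) := cl_apply G a x

lemma cl_one : cl G 1 = 1 := ext_HU G fun x => by rw [cl_apply', one_apply_eq_self, lm_one]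
lemma cl_mul (a b : Z.A) : cl G (a * b) = cl G a * cl G b := ext_HU G fun x => by
  rw [mul_apply_eq_comp, cl_apply', cl_apply', cl_apply', lm_mul]
lemma cl_add (a b : Z.A) : cl G (a + b) = cl G a + cl G b := ext_HU G fun x => by
  rw [add_apply, cl_apply' G (a + b), cl_apply' G a, cl_apply' G b, lm_add, (toV G).map_add]
  exact Completion.coe_add (toV G (lm a x)) (toV G (lm b x))
lemma cl_smul (c : ℂ) (a : Z.A) : cl G (c • a) = c • cl G a := ext_HU G fun x => by
  rw [smul_apply, cl_apply', cl_apply', lm_smul, map_smul, Completion.coe_smul]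
lemma cl_star (a : Z.A) : cl G (star a) = star (cl G a) := by
  refine (ContinuousLinearMap.eq_adjoint_iff (cl G (star a)) (cl G a)).mpr ?_
  intro x y
  induction x, y using Completion.induction_on₂ with
  | hp => apply isClosed_eq <;> fun_prop
  | ih x y =>
    obtain ⟨x, rfl⟩ := (toV G).surjective x
    obtain ⟨y, rfl⟩ := (toV G).surjective y
    rw [cl_apply' G (star a), cl_apply' G a, Completion.inner_coe, Completion.inner_coe, inner_V, inner_V]
    exact inn_star G a x y

noncomputable def rho : Z.A →⋆ₐ[ℂ] (HU G →L[ℂ] HU G) where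
  toFun := cl G
  map_one' := cl_one G
  map_mul' := cl_mul G
  map_zero' := by have := cl_smul G 0 0; rwa [zero_smul, zero_smul] at this
  map_add' := cl_add G
  commutes' c := by rw [Algebra.algebraMap_eq_smul_one, Algebra.algebraMap_eq_smul_one, cl_smul, cl_one]
  map_star' := cl_star G

lemma rho_apply (a : Z.A) (x : ι →₀ Z.A) : rho G a (toV G x : V G) = (toV G (lm a x) : V G) := cl_apply G a x

noncomputable def xi (i : ι) : HU G := (toV G (Finsupp.single i 1) : V G)

lemma rho_xi (a : Z.A) (i : ι) : rho G a (xi G i) = (toV G (Finsupp.single i a) : V G) := by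
  have : lm a (Finsupp.single i 1) = Finsupp.single i a := by
    rw [lm, Finsupp.mapRange.linearMap_apply, Finsupp.mapRange_single, LinearMap.mul_apply', mul_one]
  rw [xi, rho_apply, this]

lemma norm_single (i : ι) (a : Z.A) : ‖toV G (Finsupp.single i a)‖ ^ 2 = ((G i).psi (star a * a)).re := by
  rw [norm_V G _ {i} Finsupp.support_single_subset]; simp

theorem exists_univ : ∃ (H : Type) (_ : NormedAddCommGroup H) (_ : InnerProductSpace ℂ H) (_ : CompleteSpace H)
    (ρ : Z.A →⋆ₐ[ℂ] (H →L[ℂ] H)) (ξ : ι → H), (∀ a, ‖ρ a‖ ≤ ‖a‖) ∧ (∀ i, ‖ξ i‖ = 1) ∧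
    (∀ i n, ρ ((G i).f n) (ξ i) = ξ i) ∧ (∀ i j, i ≠ j → ∀ a, ⟪ξ i, ρ a (ξ j)⟫_ℂ = 0) ∧
    Dense (Submodule.span ℂ (Set.range fun p : ι × Z.A => ρ p.2 (ξ p.1)) : Set H) := by
  refine ⟨HU G, inferInstance, inferInstance, inferInstance, rho G, xi G, fun a => ?_, fun i => ?_, fun i n => ?_,
    fun i j hij a => ?_, ?_⟩
  · refine ContinuousLinearMap.opNorm_le_bound _ (norm_nonneg _) fun x => ?_
    induction x using Completion.induction_on with
    | hp => apply isClosed_le <;> fun_prop
    | ih x =>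
      obtain ⟨x, rfl⟩ := (toV G).surjective x
      rw [rho_apply, Completion.norm_coe, Completion.norm_coe]; exact lm_bound G a x
  · have := norm_single G i 1
    rw [star_one, one_mul, Good.psi_one, Complex.one_re] at this
    rw [xi, Completion.norm_coe]
    exact (pow_eq_one_iff_of_nonneg (norm_nonneg _) two_ne_zero).mp this
  · have := norm_single G i ((G i).f n - 1)
    rw [Good.psi_f] at this
    rw [rho_xi, xi, ← sub_eq_zero, ← norm_eq_zero, ← Completion.coe_sub, Completion.norm_coe, ← map_sub,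
      ← Finsupp.single_sub]
    exact pow_eq_zero_iff two_ne_zero |>.mp this
  · rw [rho_xi, xi, Completion.inner_coe, inner_V, inn_eq G _ _ {j} Finsupp.support_single_subset]
    simp [Finsupp.single_eq_of_ne hij.symm, Good.psi_zero]
  · refine Completion.denseRange_coe.mono ?_
    rintro _ ⟨x, rfl⟩
    obtain ⟨x, rfl⟩ := (toV G).surjective x
    induction x using Finsupp.induction_linear with
    | zero => rw [map_zero, Completion.coe_zero]; exact zero_mem _
    | add f g hf hg => rw [map_add, Completion.coe_add]; exact add_mem hf hg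
    | single i a => exact Submodule.subset_span ⟨(i, a), rho_xi G a i⟩

end Vale.Agent.P070h8
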