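import Vale.Agent.P070h8.Glue
import Vale.Agent.P070h8.Univ

/-! The algebra generated by the universal representation and the gluing unitaries. -/

namespace Vale.Agent.P070h8

open Filter Topology
open scoped InnerProductSpace ComplexOrder

variable {Z : Sys}

lemma not_sep_self (C : Good Z) : ¬ Sep C C := fun h => by
  have : (1 : ℝ) ≤ 0 := ge_of_tendsto' (h 1) fun n => by
    have := cut Z.A.subtype (fun _ => le_rfl) 1 (C.sa n) (C.f_s_apply n (b0 0)) (C.f_s_apply n (b0 0))
    rw [C.norm_s, b0.orthonormal.1, mul_one (1 : ℝ), mul_one ‖_‖, map_one, one_apply_eq_self,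
      inner_self_eq_norm_sq_to_K, C.norm_s, b0.orthonormal.1] at this
    simpa using this
  norm_num at this

theorem exists_uni (Z : Sys) : ∃ (ι H : Type) (_ : NormedAddCommGroup H) (_ : InnerProductSpace ℂ H)
    (_ : CompleteSpace H) (_ : Uni Z ι H), Nonempty ι := by
  obtain ⟨I, hI⟩ := zorn_subset {I : Set (Good Z) | I.Pairwise Sep} fun c hc hch =>
    ⟨⋃₀ c, hch.pairwise_sUnion.mpr fun s hs => hc hs, fun s hs => Set.subset_sUnion_of_mem hs⟩
  have mx : ∀ C : Good Z, ∃ i : I, ¬ Sep i C := by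
    intro C
    by_contra hn
    push Not at hn
    have h1 : (insert C I).Pairwise Sep :=
      hI.prop.insert fun D hD _ => ⟨(hn ⟨D, hD⟩).symm, hn ⟨D, hD⟩⟩
    exact not_sep_self C (hn ⟨C, hI.le_of_ge h1 (Set.subset_insert _ _) (Set.mem_insert _ _)⟩)
  obtain ⟨H, i1, i2, i3, ρ, ξ, a1, a2, a3, -, a4⟩ := exists_univ (fun i : I => i.1)
  obtain ⟨C⟩ := good_nonempty Z
  obtain ⟨i, -⟩ := mx C
  exact ⟨I, H, i1, i2, i3, ⟨fun i => i.1, ρ, ξ, a1, a2, a3, a4,
    fun i j h => hI.prop i.2 j.2 fun e => h (Subtype.ext e), mx⟩, ⟨i⟩⟩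

lemma gram {P H K : Type*} [NormedAddCommGroup H] [InnerProductSpace ℂ H] [NormedAddCommGroup K]
    [InnerProductSpace ℂ K] [CompleteSpace K] (v : P → H) (w : P → K) (h : ∀ p q, ⟪v p, v q⟫_ℂ = ⟪w p, w q⟫_ℂ)
    (hd : Dense (Submodule.span ℂ (Set.range v) : Set H)) : ∃ W : H →ₗᵢ[ℂ] K, ∀ p, W (v p) = w p := by
  let e := Finsupp.linearCombination ℂ v
  let f := Finsupp.linearCombination ℂ w
  have hn : ∀ x, ‖f x‖ = ‖e x‖ := by
    intro x
    rw [norm_eq_sqrt_re_inner (𝕜 := ℂ), norm_eq_sqrt_re_inner (𝕜 := ℂ) (e x)]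
    simp only [e, f, Finsupp.linearCombination_apply, Finsupp.sum, sum_inner, inner_sum, inner_smul_left,
      inner_smul_right, h]
  have hd' : DenseRange e := by
    rw [← Finsupp.range_linearCombination] at hd; exact hd
  have he := LinearMap.extendOfNorm_eq (f := f) hd' ⟨1, fun x => by rw [hn, one_mul]⟩
  refine ⟨⟨(f.extendOfNorm e).toLinearMap, fun x => ?_⟩, fun p => ?_⟩
  · refine hd'.induction_on (p := fun x => ‖f.extendOfNorm e x‖ = ‖x‖) x (isClosed_eq (by fun_prop) (by fun_prop))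
      fun y => by rw [he, hn]
  · simpa [e, f] using he (Finsupp.single p 1)

namespace Uni

variable {ι H : Type} [NormedAddCommGroup H] [InnerProductSpace ℂ H] [CompleteSpace H] (U : Uni Z ι H) (o : ι)

noncomputable def A : StarSubalgebra ℂ (H →L[ℂ] H) :=
  (StarAlgebra.adjoin ℂ (Set.range U.ρ ∪ Set.range fun i => U.u i o)).topologicalClosure

instance : IsClosed (U.A o : Set (H →L[ℂ] H)) := StarSubalgebra.isClosed_topologicalClosure _

noncomputable instance : CStarAlgebra (U.A o) := StarSubalgebra.cstarAlgebra _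

noncomputable def r : Z.A →⋆ₐ[ℂ] U.A o := U.ρ.codRestrict (U.A o) fun a =>
  StarSubalgebra.le_topologicalClosure _ (StarAlgebra.subset_adjoin _ _ (Or.inl ⟨a, rfl⟩))

noncomputable def v (i : ι) : U.A o :=
  ⟨U.u i o, StarSubalgebra.le_topologicalClosure _ (StarAlgebra.subset_adjoin _ _ (Or.inr ⟨i, rfl⟩))⟩

lemma v1 (i : ι) : star (U.v o i) * U.v o i = 1 := Subtype.ext (by
  show star (U.u i o) * U.u i o = 1
  rw [star_u, u_u])

lemma v2 (i : ι) : U.v o i * star (U.v o i) = 1 := Subtype.ext (by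
  show U.u i o * star (U.u i o) = 1
  rw [star_u, u_u])

lemma v3 (i : ι) (n : ℕ) : U.v o i * U.r o (1 - (U.G o).f n) = U.r o ((U.G i).W (U.G o).toChain n) :=
  Subtype.ext (U.u_f i o n)

lemma v4 (i : ι) (n : ℕ) : star (U.v o i) * U.r o (1 - (U.G i).f n) = U.r o ((U.G o).W (U.G i).toChain n) :=
  Subtype.ext (by
    show star (U.u i o) * U.ρ _ = U.ρ _
    rw [star_u, u_f])

lemma voo : U.v o o = 1 := Subtype.ext (ContinuousLinearMap.ext fun x => by
      refine tendsto_nhds_unique (U.u_lim o o x) ?_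
      have h := ((tendsto_const_nhds (x := x)).sub (U.f_lim o x)).add_const (⟪U.ξ o, x⟫_ℂ • U.ξ o)
      rw [sub_add_cancel] at h
      refine h.congr fun n => ?_
      have e : (U.G o).W (U.G o).toChain n = 1 - (U.G o).f n := by
        induction n with
        | zero => rw [Chain.W, Finset.sum_range_zero, Chain.f0, sub_self]
        | succ n ih => rw [Chain.W_succ, ih, Chain.rng]; abel
      rw [e, map_sub, map_one, sub_apply, one_apply_eq_self])

lemma ind (P : U.A o → Prop) (hc : IsClosed {a | P a}) (h1 : ∀ a, P (U.r o a)) (h2 : ∀ i, P (U.v o i))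
    (h3 : ∀ i, P (star (U.v o i))) (ha : ∀ a b, P a → P b → P (a + b)) (hm : ∀ a b, P a → P b → P (a * b))
    (a : U.A o) : P a := by
  let B : StarSubalgebra ℂ (U.A o) :=
    { carrier := {a | P a ∧ P (star a)}
      mul_mem' := fun h h' => ⟨hm _ _ h.1 h'.1, by rw [star_mul]; exact hm _ _ h'.2 h.2⟩
      add_mem' := fun h h' => ⟨ha _ _ h.1 h'.1, by rw [star_add]; exact ha _ _ h.2 h'.2⟩
      algebraMap_mem' := fun c => by
        rw [← AlgHomClass.commutes (U.r o) c]
        exact ⟨h1 _, by rw [← map_star]; exact h1 _⟩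
      star_mem' := fun h => ⟨h.2, by rw [star_star]; exact h.1⟩ }
  have hB : IsClosed (B : Set (U.A o)) := hc.inter (hc.preimage continuous_star)
  have hle : U.A o ≤ B.map (U.A o).subtype := by
    refine StarSubalgebra.topologicalClosure_minimal (StarAlgebra.adjoin_le ?_) ?_
    · rintro _ (⟨a, rfl⟩ | ⟨i, rfl⟩)
      · exact ⟨U.r o a, ⟨h1 a, by rw [← map_star]; exact h1 _⟩, rfl⟩
      · exact ⟨U.v o i, ⟨h2 i, h3 i⟩, rfl⟩
    · exact (IsClosed.isClosedMap_subtype_val inferInstance) _ hB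
  obtain ⟨b, hb, e⟩ := hle a.2
  have : b = a := Subtype.ext e
  exact this ▸ hb.1

variable {K : Type*} [NormedAddCommGroup K] [InnerProductSpace ℂ K] [CompleteSpace K]
  (π : U.A o →⋆ₐ[ℂ] (K →L[ℂ] K))

lemma hcπ (a : Z.A) : ‖π.comp (U.r o) a‖ ≤ ‖a‖ := (NonUnitalStarAlgHom.norm_apply_le π _).trans (U.hc a)

lemma contπ : Continuous π :=
  AddMonoidHomClass.continuous_of_bound π 1 fun a => by rw [one_mul]; exact NonUnitalStarAlgHom.norm_apply_le π a

lemma app2 {a b c : U.A o} (h : a * b = c) (x : K) : π a (π b x) = π c x := by rw [← h, map_mul]; rfl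

lemma move {i j : ι} {t : U.A o} (h : ∀ n, t * U.r o (1 - (U.G j).f n) = U.r o ((U.G i).W (U.G j).toChain n)) {z : K}
    (hz : ∀ n, π.comp (U.r o) ((U.G i).f n) z = z) (n : ℕ) :
    π.comp (U.r o) ((U.G j).f n) (π (star t) z) = π (star t) z := by
  have e := congrArg star (h n)
  rw [star_mul, ← map_star, ← map_star, Chain.star_W, star_sub, star_one, Chain.sa] at e
  have h1 := U.app2 o π e z
  have h2 : π (U.r o ((U.G j).W (U.G i).toChain n)) z = 0 := by
    rw [← hz n]
    show π.comp (U.r o) _ _ = 0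
    rw [← rep_mul, Chain.W_f, map_zero, zero_apply]
  rw [h2, map_sub, map_one, map_sub, map_one, sub_apply, one_apply_eq_self, sub_eq_zero] at h1
  exact h1.symm

lemma lim_mem {i j : ι} {t : U.A o} (h : ∀ n, t * U.r o (1 - (U.G j).f n) = U.r o ((U.G i).W (U.G j).toChain n))
    (h0 : ∀ z, (∀ n, π.comp (U.r o) ((U.G j).f n) z = z) → z = 0) (M : Submodule ℂ K) (hM : IsClosed (M : Set K))
    (hi : ∀ a, ∀ x ∈ M, π.comp (U.r o) a x ∈ M) (x : K) (hx : x ∈ M) : π t x ∈ M := by
  obtain ⟨z, hz, hf⟩ := proj_lim (fun n => π.comp (U.r o) ((U.G j).f n)) (fun n => ((U.G j).proj n).map _)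
    (fun n => by rw [← map_mul, (U.G j).dec]) x
  rw [h0 z hf] at hz
  have h1 := ((π t).continuous.tendsto _).comp ((tendsto_const_nhds (x := x)).sub hz)
  rw [sub_zero] at h1
  refine hM.mem_of_tendsto h1 (Eventually.of_forall fun n => ?_)
  have := U.app2 o π (h n) x
  rw [map_sub, map_one, map_sub, map_one, sub_apply, one_apply_eq_self] at this
  show π t (x - π (U.r o ((U.G j).f n)) x) ∈ M
  rw [this]
  exact hi _ x hx

theorem fixed (hirr : Irr π) (ξ0 : K) (h0 : ‖ξ0‖ = 1) :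
    ∃ z, ‖z‖ = 1 ∧ ∀ n, π.comp (U.r o) ((U.G o).f n) z = z := by
  by_contra hn
  have a1 : ∀ z, (∀ n, π.comp (U.r o) ((U.G o).f n) z = z) → z = 0 := by
    intro z hz
    by_contra hz0
    exact hn ⟨((‖z‖⁻¹ : ℝ) : ℂ) • z, by rw [norm_smul]; simp [hz0], fun n => by rw [map_smul, hz]⟩
  have a2 : ∀ i z, (∀ n, π.comp (U.r o) ((U.G i).f n) z = z) → z = 0 := by
    intro i z hz
    have := a1 _ (U.move o π (U.v3 o i) hz)
    rw [← one_apply_eq_self (F := K →L[ℂ] K) z, ← map_one π, ← U.app2 o π (U.v2 o i), this, map_zero]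
  have a3 : Irr (π.comp (U.r o)) := fun M hM hi => hirr M hM fun a => by
    induction a using U.ind o with
    | hc =>
      simp only [Set.ofPred_forall]
      exact isClosed_iInter fun x => isClosed_iInter fun _ =>
        hM.preimage ((ContinuousLinearMap.apply ℂ K x).continuous.comp (U.contπ o π))
    | h1 a => exact hi a
    | h2 i => exact U.lim_mem o π (U.v3 o i) a1 M hM hi
    | h3 i => exact U.lim_mem o π (U.v4 o i) (a2 i) M hM hi
    | ha a b h1 h2 => intro x hx; rw [map_add]; exact add_mem (h1 x hx) (h2 x hx)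
    | hm a b h1 h2 => intro x hx; rw [map_mul]; exact h1 _ (h2 x hx)
  obtain ⟨C, ξ, b1, b2⟩ := good_main _ (U.hcπ o π) a3 (fun q hq => by
    have : U.r o q = 0 := Subtype.ext (U.fin q hq)
    rw [StarAlgHom.comp_apply, this, map_zero]) ξ0 h0
  obtain ⟨i, hi⟩ := U.mx C
  obtain ⟨z, c1, c2⟩ := not_sep_rep _ (U.hcπ o π) hi b1 b2
  exact c1 (a2 i z c2)

lemma inter (W : H →ₗᵢ[ℂ] K) (wr : ∀ a x, W (U.ρ a x) = π.comp (U.r o) a (W x))
    (wv : ∀ i x, W (U.u i o x) = π (U.v o i) (W x)) :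
    ∀ (a : U.A o) (x : H), W ((a : H →L[ℂ] H) x) = π a (W x) := by
  intro a
  induction a using U.ind o with
  | hc =>
    simp only [Set.ofPred_forall]
    exact isClosed_iInter fun x => isClosed_eq
      (W.continuous.comp ((ContinuousLinearMap.apply ℂ H x).continuous.comp continuous_subtype_val))
      ((ContinuousLinearMap.apply ℂ K (W x)).continuous.comp (U.contπ o π))
  | h1 a => exact wr a
  | h2 i => exact wv i
  | h3 i =>
    intro x
    have h1 := wv i (((star (U.v o i) : U.A o) : H →L[ℂ] H) x)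
    have h2 : U.u i o (((star (U.v o i) : U.A o) : H →L[ℂ] H) x) = x :=
      congrArg (fun T : U.A o => (T : H →L[ℂ] H) x) (U.v2 o i)
    rw [h2] at h1
    rw [h1, U.app2 o π (U.v1 o i), map_one, one_apply_eq_self]
  | ha a b h1 h2 => intro x; rw [map_add π, add_apply, ← h1, ← h2, ← W.map_add]; rfl
  | hm a b h1 h2 => intro x; rw [map_mul π, mul_apply_eq_comp, ← h2, ← h1]; rfl

theorem equiv (hirr : Irr π) (ξ0 : K) (h0 : ‖ξ0‖ = 1) :
    ∃ W : H ≃ₗᵢ[ℂ] K, ∀ (a : U.A o) (x : H), W ((a : H →L[ℂ] H) x) = π a (W x) := by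
  obtain ⟨z, z1, z2⟩ := U.fixed o π hirr ξ0 h0
  have hη : ∀ i n, π.comp (U.r o) ((U.G i).f n) (π (U.v o i) z) = π (U.v o i) z := fun i n => by
    have := U.move o π (U.v4 o i) z2 n
    rwa [star_star] at this
  have hη1 : ∀ i, ⟪π (U.v o i) z, π (U.v o i) z⟫_ℂ = 1 := fun i => by
    rw [← inner_star_right, ← map_star, U.app2 o π (U.v1 o i), map_one, one_apply_eq_self,
      inner_self_eq_norm_sq_to_K, z1]; simp
  obtain ⟨W, hW⟩ := gram (fun p : ι × Z.A => U.ρ p.2 (U.ξ p.1)) (fun p => π.comp (U.r o) p.2 (π (U.v o p.1) z))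
    (fun p q => by
      rw [← inner_star_right, ← inner_star_right, ← map_star, ← map_star, ← rep_mul, ← rep_mul]
      by_cases h : p.1 = q.1
      · rw [h, (U.G _).psi_rep _ U.hc (U.fix _) (U.fix _), (U.G _).psi_rep _ (U.hcπ o π) (hη _) (hη _), U.ii, hη1]
      · rw [sep_rep _ U.hc (U.sep _ _ h) (U.fix _) (U.fix _), sep_rep _ (U.hcπ o π) (U.sep _ _ h) (hη _) (hη _)])
    U.den
  have wξ : ∀ i, W (U.ξ i) = π (U.v o i) z := fun i => by simpa using hW (i, 1)
  have vo : π (U.v o o) z = z := by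
    rw [U.voo, map_one, one_apply_eq_self]
  have wr : ∀ a x, W (U.ρ a x) = π.comp (U.r o) a (W x) := by
    intro a x
    refine U.den.induction (P := fun x => W (U.ρ a x) = π.comp (U.r o) a (W x)) (fun y hy => ?_)
      (isClosed_eq (by fun_prop) (by fun_prop)) x
    induction hy using Submodule.span_induction with
    | mem x hx => obtain ⟨p, rfl⟩ := hx; rw [hW, ← rep_mul, ← rep_mul]; exact hW (p.1, a * p.2)
    | zero => simp
    | add x y _ _ hx hy => simp only [map_add, hx, hy]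
    | smul c x _ hx => simp only [map_smul, hx]
  have wv : ∀ i x, W (U.u i o x) = π (U.v o i) (W x) := by
    intro i x
    refine tendsto_nhds_unique ((W.continuous.tendsto _).comp (U.u_lim i o x)) ?_
    have h := (((π (U.v o i)).continuous.tendsto _).comp ((W.continuous.tendsto _).comp
      ((tendsto_const_nhds (x := x)).sub (U.f_lim o x)))).add_const (⟪U.ξ o, x⟫_ℂ • π (U.v o i) z)
    rw [map_sub, map_sub, map_smul, map_smul, wξ, vo, sub_add_cancel] at h
    refine h.congr fun n => ?_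
    simp only [Function.comp]
    rw [map_add, map_smul, wξ, wr, StarAlgHom.comp_apply, ← U.app2 o π (U.v3 o i n), map_sub W, wr]
    simp
  have key := U.inter o π W wr wv
  have hs : Function.Surjective W := by
    rcases hirr W.toLinearMap.range W.isometry.isClosedEmbedding.isClosed_range (by
      rintro a _ ⟨x, rfl⟩; exact ⟨_, key a x⟩) with h | h
    · have : W (U.ξ o) ∈ W.toLinearMap.range := ⟨_, rfl⟩
      rw [h, Submodule.mem_bot, wξ, vo] at this
      simp [this] at z1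
    · exact LinearMap.range_eq_top.mp h
  exact ⟨LinearIsometryEquiv.ofSurjective W hs, key⟩

lemma one_ne : (1 : U.A o) ≠ 0 := fun h => by
  have h1 : U.ξ o = 0 := congrArg (fun T : U.A o => (T : H →L[ℂ] H) (U.ξ o)) h
  have := U.n1 o
  simp [h1] at this

theorem equiv' (π : U.A o →⋆ₙₐ[ℂ] (K →L[ℂ] K)) (h0 : π ≠ 0)
    (hirr : ∀ M : Submodule ℂ K, IsClosed (M : Set K) → (∀ a, ∀ x ∈ M, π a x ∈ M) → M = ⊥ ∨ M = ⊤) :
    ∃ W : H ≃ₗᵢ[ℂ] K, ∀ (a : U.A o) (x : H), W ((a : H →L[ℂ] H) x) = π a (W x) := by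
  have hm : ∀ a b x, π (a * b) x = π a (π b x) := fun a b x => by rw [map_mul]; rfl
  have h1 : π 1 = 1 := by
    rcases hirr (1 - π 1).ker (1 - π 1).isClosed_ker (fun a x hx => by
      have hx' : x - π 1 x = 0 := hx
      show π a x - π 1 (π a x) = 0
      rw [← hm, one_mul, sub_self]) with h | h
    · refine absurd (NonUnitalStarAlgHom.ext fun a => ContinuousLinearMap.ext fun x => ?_) h0
      have : π a x ∈ (1 - π 1).ker := by
        show π a x - π 1 (π a x) = 0
        rw [← hm, one_mul, sub_self]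
      rwa [h] at this
    · refine ContinuousLinearMap.ext fun x => ?_
      have : x ∈ (1 - π 1).ker := h ▸ Submodule.mem_top
      exact (sub_eq_zero.mp this).symm
  obtain ⟨x, hx⟩ : ∃ x : K, x ≠ 0 := by
    by_contra hn
    push Not at hn
    exact h0 (NonUnitalStarAlgHom.ext fun a => ContinuousLinearMap.ext fun x => hn _)
  let π' : U.A o →⋆ₐ[ℂ] (K →L[ℂ] K) :=
    { toFun := π
      map_one' := h1
      map_mul' := map_mul π
      map_zero' := map_zero π
      map_add' := map_add π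
      commutes' := fun c => by rw [Algebra.algebraMap_eq_smul_one, Algebra.algebraMap_eq_smul_one, map_smul, h1]
      map_star' := map_star π }
  exact U.equiv o π' hirr (((‖x‖⁻¹ : ℝ) : ℂ) • x) (by rw [norm_smul]; simp [hx])

theorem not_compact (K : Type*) [NormedAddCommGroup K] [InnerProductSpace ℂ K] [CompleteSpace K] :
    ¬ ∃ Φ : U.A o →⋆ₙₐ[ℂ] (K →L[ℂ] K), Function.Injective Φ ∧ Set.range Φ = {T : K →L[ℂ] K | IsCompactOperator T} := by
  rintro ⟨Φ, hi, hr⟩
  have h1 : Φ 1 = 1 := ContinuousLinearMap.ext fun x => by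
    by_cases hx : x = 0
    · simp [hx]
    have hc : (innerSL ℂ x).smulRight x ∈ Set.range Φ := by
      rw [hr]
      exact (isCompactOperator_of_locallyCompactSpace_dom (innerSL ℂ x)).clm_comp
        (ContinuousLinearMap.toSpanSingleton ℂ x)
    obtain ⟨a, ha⟩ := hc
    have h2 : Φ 1 * Φ a = Φ a := by rw [← map_mul, one_mul]
    have h3 := congrArg (fun T : K →L[ℂ] K => T x) h2
    simp only [ha, mul_apply_eq_comp, ContinuousLinearMap.smulRight_apply, map_smul] at h3
    exact smul_right_injective K (by simpa using hx) h3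
  have hc : IsCompactOperator (Φ 1) := by
    have : Φ 1 ∈ Set.range Φ := ⟨1, rfl⟩
    rwa [hr] at this
  rw [h1] at hc
  have := FiniteDimensional.of_isCompactOperator_id (𝕜 := ℂ) hc
  obtain ⟨s, t, -, -, i1, i2, i3⟩ := two' Z
  have e : ∀ a b c : Z.A, star a * b = c → star (Φ (U.r o a)) * Φ (U.r o b) = Φ (U.r o c) := fun a b c h => by
    rw [← map_star, ← map_star, ← map_mul, ← map_mul, h]
  have j1 := e _ _ _ i1
  have j2 := e _ _ _ i2
  have j3 := e _ _ _ i3
  rw [map_one, h1] at j1 j2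
  rw [map_zero, map_zero] at j3
  have inj : Function.Injective (Φ (U.r o s)).toLinearMap :=
    Function.LeftInverse.injective (g := (star (Φ (U.r o s)) : K →L[ℂ] K)) fun x => congrArg (fun T : K →L[ℂ] K => T x) j1
  have sur := LinearMap.injective_iff_surjective.mp inj
  have z : Φ (U.r o t) = 0 := ContinuousLinearMap.ext fun x => by
    obtain ⟨y, hy⟩ := sur (Φ (U.r o t) x)
    have hy' : Φ (U.r o s) y = Φ (U.r o t) x := hy
    have a1 : star (Φ (U.r o s)) (Φ (U.r o s) y) = y := congrArg (fun T : K →L[ℂ] K => T y) j1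
    have a2 : star (Φ (U.r o s)) (Φ (U.r o t) x) = 0 := congrArg (fun T : K →L[ℂ] K => T x) j3
    rw [hy', a2] at a1
    rw [← hy', ← a1, map_zero]; rfl
  rw [z, mul_zero, ← h1, ← map_zero Φ] at j2
  exact U.one_ne o (hi j2).symm

end Uni

end Vale.Agent.P070h8
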