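import Vale.Agent.P070h8.Steps

/-! The gluing unitaries. -/

namespace Vale.Agent.P070h8

open Filter Topology Finset
open scoped InnerProductSpace ComplexOrder

variable {Z : Sys}

namespace Chain

variable (C D : Chain Z)

lemma ss_eq (k : ℕ) : star (C.s k) * (C.f k - C.f (k + 1)) = star (C.s k) := by
  rw [← C.rng, ← mul_assoc, C.iso, one_mul]

lemma ss_lt {k n : ℕ} (h : k < n) : star (C.s k) * C.f n = 0 := by
  rw [← C.ss_eq, mul_assoc, sub_mul, C.mono h.le, C.mono h, sub_self, mul_zero]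

lemma ss_ge {k n : ℕ} (h : n ≤ k) : star (C.s k) * C.f n = star (C.s k) := by
  rw [← C.ss_eq, mul_assoc, sub_mul, C.mono' h, C.mono' (h.trans k.le_succ)]

noncomputable def W (n : ℕ) : Z.A := ∑ k ∈ range n, C.s k * star (D.s k)

lemma W_succ (n : ℕ) : C.W D (n + 1) = C.W D n + C.s n * star (D.s n) := sum_range_succ _ _

lemma star_W (n : ℕ) : star (C.W D n) = D.W C n := by
  rw [W, W, star_sum]
  exact sum_congr rfl fun k _ => by rw [star_mul, star_star]

lemma W_f (n : ℕ) : C.W D n * D.f n = 0 := by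
  rw [W, sum_mul]
  exact sum_eq_zero fun k hk => by rw [mul_assoc, D.ss_lt (mem_range.mp hk), mul_zero]

lemma W_f' {n m : ℕ} (h : n ≤ m) : C.W D m * (1 - D.f n) = C.W D n := by
  induction m, h using Nat.le_induction with
  | base => rw [mul_sub, W_f, mul_one, sub_zero]
  | succ m h ih => rw [W_succ, add_mul, ih, mul_assoc, mul_sub, D.ss_ge h, mul_one, sub_self, mul_zero, add_zero]

lemma W_W (n : ℕ) : D.W C n * C.W D n = 1 - D.f n := by
  induction n with
  | zero => rw [W, sum_range_zero, zero_mul, D.f0, sub_self]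
  | succ n ih =>
    have h1 : D.W C n * C.s n = 0 := by rw [← C.f_s, ← mul_assoc, W_f, zero_mul]
    have h2 : star (C.s n) * C.W D n = 0 := by rw [← star_W, ← star_mul, h1, star_zero]
    have h3 : D.s n * star (C.s n) * (C.s n * star (D.s n)) = D.f n - D.f (n + 1) := by
      rw [mul_assoc, ← mul_assoc (star (C.s n)), C.iso, one_mul, D.rng]
    rw [W_succ, W_succ, add_mul, mul_add, mul_add, ih, h3, ← mul_assoc, h1, mul_assoc, h2, zero_mul, mul_zero]
    abel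

end Chain

def Sep (C D : Good Z) : Prop := ∀ x : Z.A, Tendsto (fun n => ‖C.f n * x * D.f n‖) atTop (𝓝 0)

lemma Sep.symm {C D : Good Z} (h : Sep C D) : Sep D C := fun x => (h (star x)).congr fun n => by
  have : ‖star (D.f n * x * C.f n)‖ = ‖D.f n * x * C.f n‖ := norm_star ((D.f n * x * C.f n : Z.A) : B0)
  rw [← this, star_mul, star_mul, C.sa, D.sa, mul_assoc]

lemma sq_cut {f : Z.A} (pf : IsStarProjection f) (y : Z.A) (c : ℂ) :
    ‖y * f‖ ^ 2 ≤ ‖f * (star y * y - c • 1) * f‖ + ‖c‖ := by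
  have e : star (y * f) * (y * f) = f * (star y * y - c • 1) * f + c • f := by
    rw [star_mul, pf.isSelfAdjoint.star_eq, mul_sub, sub_mul, mul_smul_comm, smul_mul_assoc, mul_one,
      pf.isIdempotentElem.eq, sub_add_cancel]
    simp only [mul_assoc]
  have h5 : ‖star (y * f) * (y * f)‖ = ‖y * f‖ * ‖y * f‖ := CStarRing.norm_star_mul_self (x := ((y * f : Z.A) : B0))
  have h6 : ‖c • f‖ ≤ ‖c‖ := (norm_smul_le _ _).trans (mul_le_of_le_one_right (norm_nonneg _) (pnorm pf))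
  have h7 := norm_add_le (f * (star y * y - c • 1) * f) (c • f)
  rw [← e, h5] at h7
  rw [sq]; linarith

section Rep

variable {H : Type*} [NormedAddCommGroup H] [InnerProductSpace ℂ H] [CompleteSpace H]
  (σ : Z.A →⋆ₐ[ℂ] (H →L[ℂ] H)) (hc : ∀ a, ‖σ a‖ ≤ ‖a‖)

include hc

lemma sep_rep {C D : Good Z} (h : Sep C D) {ξ ξ' : H} (h1 : ∀ n, σ (D.f n) ξ = ξ) (h2 : ∀ n, σ (C.f n) ξ' = ξ')
    (a : Z.A) : ⟪ξ', σ a ξ⟫_ℂ = 0 := by
  rw [← norm_le_zero_iff]
  have := (h a).mul_const (‖ξ'‖ * ‖ξ‖)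
  rw [zero_mul] at this
  exact ge_of_tendsto' this fun n => cut σ hc _ (C.sa n) (h1 n) (h2 n)

lemma not_sep_rep {C D : Good Z} (h : ¬ Sep C D) {ξ : H} (h0 : ‖ξ‖ = 1) (h1 : ∀ n, σ (D.f n) ξ = ξ) :
    ∃ z, z ≠ 0 ∧ ∀ n, σ (C.f n) z = z := by
  rw [Sep, not_forall] at h
  obtain ⟨x, hx⟩ := h
  obtain ⟨z, hz, hf⟩ := proj_lim (fun n => σ (C.f n)) (fun n => (C.proj n).map σ)
    (fun n => by rw [← map_mul, C.dec]) (σ x ξ)
  refine ⟨z, fun h0' => hx ?_, hf⟩
  rw [h0'] at hz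
  refine Metric.tendsto_atTop.mpr fun ε hε => ?_
  obtain ⟨n, hn⟩ := Metric.tendsto_atTop.mp hz (ε / 2) (by positivity)
  have h2 := hn n le_rfl
  rw [dist_zero_right, ← rep_mul] at h2
  obtain ⟨y, hy⟩ : ∃ y, y = C.f n * x := ⟨_, rfl⟩
  rw [← hy] at h2
  have h3 : D.psi (star y * y) = ((‖σ y ξ‖ ^ 2 : ℝ) : ℂ) := by
    have := D.psi_rep σ hc h1 h1 (star y * y)
    rw [inner_self_eq_norm_sq_to_K, h0, rep_mul, map_star, inner_star_right, inner_self_eq_norm_sq_to_K] at this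
    simpa using this.symm
  obtain ⟨m, hm⟩ := Metric.tendsto_atTop.mp (D.psi_spec (star y * y)) ((ε / 2) ^ 2) (by positivity)
  refine ⟨max n m, fun k hk => ?_⟩
  have h4 := hm k (le_of_max_le_right hk)
  rw [dist_zero_right, norm_norm] at h4 ⊢
  have h6 : ‖D.psi (star y * y)‖ ≤ (ε / 2) ^ 2 := by
    rw [h3, Complex.norm_real, Real.norm_eq_abs, abs_of_nonneg (sq_nonneg _)]
    gcongr
  have h7 := sq_cut (D.proj k) y (D.psi (star y * y))
  have h8 : ‖C.f k * x * D.f k‖ ≤ ‖y * D.f k‖ := by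
    rw [hy]
    exact cut_le (D.proj k) (C.proj k) (D.mono le_rfl) (C.mono' (le_of_max_le_left hk)) x
  refine h8.trans_lt (lt_of_pow_lt_pow_left₀ 2 hε.le ?_)
  have : (ε / 2) ^ 2 + (ε / 2) ^ 2 ≤ ε ^ 2 := by nlinarith
  linarith

omit hc in
lemma W_lim (C D : Chain Z) (η : H) : ∃ z, Tendsto (fun n => σ (C.W D n) η) atTop (𝓝 z) := by
  obtain ⟨z, hz, -⟩ := proj_lim (fun n => σ (D.f n)) (fun n => (D.proj n).map σ)
    (fun n => by rw [← map_mul, D.dec]) η
  have hW : ∀ m x, ‖σ (C.W D m) x‖ ≤ ‖x‖ := by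
    intro m x
    have p := ((D.proj m).one_sub).map σ
    have a := rep_sq σ (C.W D m) x
    rw [Chain.star_W, Chain.W_W, proj_norm_sq p] at a
    have b := (σ _).le_of_opNorm_le p.norm_le x
    rw [one_mul] at b
    exact ((sq_eq_sq₀ (norm_nonneg _) (norm_nonneg _)).mp a).symm.trans_le b
  refine cauchySeq_tendsto_of_complete (Metric.cauchySeq_iff'.mpr fun ε hε => ?_)
  obtain ⟨N, hN⟩ := Metric.cauchySeq_iff'.mp hz.cauchySeq ε hε
  refine ⟨N, fun n hn => lt_of_le_of_lt ?_ (hN n hn)⟩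
  have e : C.W D n - C.W D N = C.W D n * (D.f N - D.f n) := by
    rw [← C.W_f' D hn, mul_sub, mul_sub, mul_one, Chain.W_f]; abel
  rw [dist_eq_norm, dist_comm, dist_eq_norm, ← sub_apply, ← map_sub, e, rep_mul, ← sub_apply, ← map_sub]
  exact hW _ _

end Rep

/-- the data of the universal representation -/
structure Uni (Z : Sys) (ι : Type) (H : Type) [NormedAddCommGroup H] [InnerProductSpace ℂ H] [CompleteSpace H] where
  G : ι → Good Z
  ρ : Z.A →⋆ₐ[ℂ] (H →L[ℂ] H)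
  ξ : ι → H
  hc : ∀ a, ‖ρ a‖ ≤ ‖a‖
  n1 : ∀ i, ‖ξ i‖ = 1
  fix : ∀ i n, ρ ((G i).f n) (ξ i) = ξ i
  den : Dense (Submodule.span ℂ (Set.range fun p : ι × Z.A => ρ p.2 (ξ p.1)) : Set H)
  sep : ∀ i j, i ≠ j → Sep (G i) (G j)
  mx : ∀ C : Good Z, ∃ i, ¬ Sep (G i) C

namespace Uni

variable {ι H : Type} [NormedAddCommGroup H] [InnerProductSpace ℂ H] [CompleteSpace H] (U : Uni Z ι H)

lemma zero_of (z : H) (h : ∀ i a, ⟪z, U.ρ a (U.ξ i)⟫_ℂ = 0) : z = 0 := by
  refine U.den.eq_zero_of_inner_left ℂ fun v hv => ?_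
  induction hv using Submodule.span_induction with
  | mem x hx => obtain ⟨p, rfl⟩ := hx; exact h _ _
  | zero => simp
  | add x y _ _ hx hy => rw [inner_add_right, hx, hy, add_zero]
  | smul a x _ hx => rw [inner_smul_right, hx, mul_zero]

lemma ii (i : ι) : ⟪U.ξ i, U.ξ i⟫_ℂ = 1 := by rw [inner_self_eq_norm_sq_to_K, U.n1]; simp

lemma f_lim (i : ι) (η : H) : Tendsto (fun n => U.ρ ((U.G i).f n) η) atTop (𝓝 (⟪U.ξ i, η⟫_ℂ • U.ξ i)) := by
  obtain ⟨z, hz, hf⟩ := proj_lim (fun n => U.ρ ((U.G i).f n)) (fun n => ((U.G i).proj n).map U.ρ)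
    (fun n => by rw [← map_mul, (U.G i).dec]) η
  have h1 : ⟪U.ξ i, z⟫_ℂ = ⟪U.ξ i, η⟫_ℂ :=
    tendsto_nhds_unique (tendsto_const_nhds.inner hz) (tendsto_const_nhds.congr fun n => by
      rw [← inner_star_left, ← map_star, (U.G i).sa, U.fix])
  have h2 : ∀ n, U.ρ ((U.G i).f n) (z - ⟪U.ξ i, η⟫_ℂ • U.ξ i) = z - ⟪U.ξ i, η⟫_ℂ • U.ξ i := fun n => by
    rw [map_sub, map_smul, hf, U.fix]
  have h3 : z - ⟪U.ξ i, η⟫_ℂ • U.ξ i = 0 := U.zero_of _ fun j a => by
    by_cases hij : i = j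
    · subst hij
      rw [(U.G i).psi_rep U.ρ U.hc (U.fix i) h2, ← inner_conj_symm, inner_sub_right, inner_smul_right, h1, U.ii]
      simp
    · exact sep_rep U.ρ U.hc (U.sep i j hij) (U.fix j) h2 a
  rwa [sub_eq_zero.mp h3] at hz

lemma fin (q : Z.A) (hq : FinRk (q : B0)) : U.ρ q = 0 := by
  have h : ∀ i a, U.ρ q (U.ρ a (U.ξ i)) = 0 := by
    intro i a
    have := (U.G i).psi_rep U.ρ U.hc (U.fix i) (U.fix i) (star (q * a) * (q * a))
    rw [(U.G i).psi_fin hq, zero_mul, rep_mul, map_star, inner_star_right, inner_self_eq_zero, rep_mul] at this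
    exact this
  ext x
  refine ext_inner_left ℂ fun y => ?_
  have : star (U.ρ q) y = 0 := U.zero_of _ fun i a => by rw [inner_star_left, h, inner_zero_right]
  rw [← inner_star_left, this]; simp

lemma exists_u (i j : ι) : ∃ u : H →L[ℂ] H, ∀ η,
    Tendsto (fun n => U.ρ ((U.G i).W (U.G j).toChain n) η + ⟪U.ξ j, η⟫_ℂ • U.ξ i) atTop (𝓝 (u η)) := by
  choose z hz using W_lim U.ρ (U.G i).toChain (U.G j).toChain
  refine ⟨continuousLinearMapOfTendsto (l := atTop) (fun n => U.ρ ((U.G i).W (U.G j).toChain n))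
    (tendsto_pi_nhds.mpr hz) + (innerSL ℂ (U.ξ j)).smulRight (U.ξ i), fun η => (hz η).add_const _⟩

noncomputable def u (i j : ι) : H →L[ℂ] H := (U.exists_u i j).choose

lemma u_lim (i j : ι) (η : H) :
    Tendsto (fun n => U.ρ ((U.G i).W (U.G j).toChain n) η + ⟪U.ξ j, η⟫_ℂ • U.ξ i) atTop (𝓝 (U.u i j η)) :=
  (U.exists_u i j).choose_spec η

lemma star_u (i j : ι) : star (U.u i j) = U.u j i := by
  symm
  refine (ContinuousLinearMap.eq_adjoint_iff _ _).mpr fun x y => ?_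
  refine tendsto_nhds_unique ((U.u_lim j i x).inner tendsto_const_nhds)
    ((tendsto_const_nhds.inner (U.u_lim i j y)).congr fun n => ?_)
  rw [inner_add_left, inner_add_right, ← inner_star_left, ← map_star, Chain.star_W, inner_smul_left, inner_smul_right,
    inner_conj_symm, mul_comm]

lemma u_f (i j : ι) (n : ℕ) : U.u i j * U.ρ (1 - (U.G j).f n) = U.ρ ((U.G i).W (U.G j).toChain n) := by
  refine ContinuousLinearMap.ext fun η => ?_
  refine tendsto_nhds_unique (U.u_lim i j (U.ρ (1 - (U.G j).f n) η)) (tendsto_const_nhds.congr' ?_)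
  filter_upwards [eventually_ge_atTop n] with m hm
  have : ⟪U.ξ j, U.ρ (1 - (U.G j).f n) η⟫_ℂ = 0 := by
    rw [← inner_star_left, ← map_star, star_sub, star_one, (U.G j).sa, map_sub, map_one, sub_apply, one_apply_eq_self,
      U.fix, sub_self, inner_zero_left]
  rw [← rep_mul, Chain.W_f' _ _ hm, this, zero_smul, add_zero]

lemma u_xi (i j : ι) : U.u i j (U.ξ j) = U.ξ i :=
  tendsto_nhds_unique (U.u_lim i j _) (tendsto_const_nhds.congr fun n => by
    rw [← U.fix j n, ← rep_mul, Chain.W_f, U.fix j n, U.ii, one_smul, map_zero, zero_apply, zero_add])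

lemma u_u (i j : ι) : U.u j i * U.u i j = 1 := by
  ext η
  refine tendsto_nhds_unique (((U.u j i).continuous.tendsto _).comp (U.u_lim i j η)) ?_
  have h := ((tendsto_const_nhds (x := η)).sub (U.f_lim j η)).add_const (⟪U.ξ j, η⟫_ℂ • U.ξ j)
  rw [sub_add_cancel] at h
  refine h.congr fun n => ?_
  have e : (1 - (U.G i).f n) * (U.G i).W (U.G j).toChain n = (U.G i).W (U.G j).toChain n := by
    have := congrArg star ((U.G j).W_f' (U.G i).toChain (le_refl n))
    rwa [star_mul, Chain.star_W, star_sub, star_one, Chain.sa] at this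
  simp only [Function.comp]
  rw [map_add, map_smul, u_xi, ← e, rep_mul, ← mul_apply_eq_comp (U.u j i), u_f, ← rep_mul, Chain.W_W, map_sub, map_one,
    sub_apply, one_apply_eq_self]

end Uni

end Vale.Agent.P070h8
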