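import Vale.Agent.P070h8.Base

/-! Good points: decreasing sequences of projections that excise a state. -/

namespace Vale.Agent.P070h8

open Filter Topology
open scoped InnerProductSpace ComplexOrder

variable {Z : Sys}

structure Chain (Z : Sys) where
  f : ℕ → Z.A
  s : ℕ → Z.A
  proj : ∀ n, IsStarProjection (f n)
  f0 : f 0 = 1
  dec : ∀ n, f n * f (n + 1) = f (n + 1)
  iso : ∀ n, star (s n) * s n = 1
  rng : ∀ n, s n * star (s n) = f n - f (n + 1)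

structure Good (Z : Sys) extends Chain Z where
  exc : ∀ a : Z.A, ∃ c : ℂ, Tendsto (fun n => ‖f n * (a - c • 1) * f n‖) atTop (𝓝 0)

lemma pnorm {p : Z.A} (hp : IsStarProjection p) : ‖p‖ ≤ 1 := (hp.map Z.A.subtype).norm_le

lemma comm_of_le {R : Type*} [Ring R] [StarRing R] {p q : R} (hp : IsStarProjection p) (hq : IsStarProjection q)
    (h : p * q = q) : q * p = q := by
  have := congrArg star h
  rwa [star_mul, hp.isSelfAdjoint.star_eq, hq.isSelfAdjoint.star_eq] at this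

lemma cut_le {p q p' q' : Z.A} (hp : IsStarProjection p') (hq : IsStarProjection q') (h1 : p * p' = p')
    (h2 : q' * q = q') (x : Z.A) : ‖q' * x * p'‖ ≤ ‖q * x * p‖ := by
  have : q' * x * p' = q' * (q * x * p) * p' := by
    calc q' * x * p' = (q' * q) * x * (p * p') := by rw [h1, h2]
      _ = _ := by simp only [mul_assoc]
  rw [this]
  calc _ ≤ ‖q'‖ * ‖q * x * p‖ * ‖p'‖ := norm_mul₃_le
    _ ≤ 1 * ‖q * x * p‖ * 1 := by gcongr; exacts [pnorm hq, pnorm hp]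
    _ = _ := by ring

lemma cut_le' {p q : Z.A} (hp : IsStarProjection p) (hq : IsStarProjection q) (x : Z.A) : ‖q * x * p‖ ≤ ‖x‖ := by
  simpa using cut_le (p := 1) (q := 1) hp hq (one_mul _) (mul_one _) x

section Rep

variable {H : Type*} [NormedAddCommGroup H] [InnerProductSpace ℂ H] [CompleteSpace H]

lemma norm_iso {T : H →L[ℂ] H} (h : star T * T = 1) (x : H) : ‖T x‖ = ‖x‖ := by
  have := re_inner_star_mul T x
  rw [h, one_apply_eq_self, inner_self_eq_norm_sq_to_K] at this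
  refine (sq_eq_sq₀ (norm_nonneg _) (norm_nonneg _)).mp ?_
  rw [← this]; norm_cast

variable (σ : Z.A →⋆ₐ[ℂ] (H →L[ℂ] H))

lemma rep_mul (a b : Z.A) (x : H) : σ (a * b) x = σ a (σ b x) := by rw [map_mul]; rfl

lemma cut (hc : ∀ a, ‖σ a‖ ≤ ‖a‖) {p q : Z.A} (x : Z.A) (hq : star q = q) {ξ ξ' : H} (h1 : σ p ξ = ξ)
    (h2 : σ q ξ' = ξ') : ‖⟪ξ', σ x ξ⟫_ℂ‖ ≤ ‖q * x * p‖ * (‖ξ'‖ * ‖ξ‖) := by
  have : ⟪ξ', σ x ξ⟫_ℂ = ⟪ξ', σ (q * x * p) ξ⟫_ℂ := by
    rw [rep_mul, rep_mul, h1, ← hq, map_star, inner_star_right, h2]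
  rw [this]
  calc _ ≤ ‖ξ'‖ * ‖σ (q * x * p) ξ‖ := norm_inner_le_norm _ _
    _ ≤ ‖ξ'‖ * (‖q * x * p‖ * ‖ξ‖) := by gcongr; exact (σ _).le_of_opNorm_le (hc _) _
    _ = _ := by ring

end Rep

namespace Chain

variable (G : Chain Z)

lemma mono {n m : ℕ} (h : n ≤ m) : G.f n * G.f m = G.f m :=
  proj_mono G.f (fun n => (G.proj n).isIdempotentElem.eq) G.dec h

lemma mono' {n m : ℕ} (h : n ≤ m) : G.f m * G.f n = G.f m := comm_of_le (G.proj n) (G.proj m) (G.mono h)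

lemma sa (n : ℕ) : star (G.f n) = G.f n := (G.proj n).isSelfAdjoint.star_eq

lemma s_eq (n : ℕ) : (G.f n - G.f (n + 1)) * G.s n = G.s n := by rw [← G.rng, mul_assoc, G.iso, mul_one]

lemma f_s (n : ℕ) : G.f n * G.s n = G.s n := by
  rw [← G.s_eq, ← mul_assoc, mul_sub, G.mono le_rfl, G.dec]

lemma cut_anti (G' : Chain Z) (x : Z.A) {n m : ℕ} (h : n ≤ m) : ‖G'.f m * x * G.f m‖ ≤ ‖G'.f n * x * G.f n‖ :=
  cut_le (G.proj m) (G'.proj m) (G.mono h) (G'.mono' h) x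

noncomputable def eta (n : ℕ) : H0 := (G.s n : B0) (b0 0)

lemma norm_s (n : ℕ) (x : H0) : ‖(G.s n : B0) x‖ = ‖x‖ := norm_iso (congrArg Subtype.val (G.iso n)) x

lemma norm_eta (n : ℕ) : ‖G.eta n‖ = 1 := by rw [eta, G.norm_s, b0.orthonormal.1]

lemma f_s_apply (n : ℕ) (x : H0) : Z.A.subtype (G.f n) ((G.s n : B0) x) = (G.s n : B0) x :=
  congrArg (fun T : Z.A => (T : B0) x) (G.f_s n)

lemma num (a : Z.A) (c : ℂ) (n : ℕ) (x : H0) (hx : ‖x‖ = 1) :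
    ‖⟪(G.s n : B0) x, (a : B0) ((G.s n : B0) x)⟫_ℂ - c‖ ≤ ‖G.f n * (a - c • 1) * G.f n‖ := by
  have := cut Z.A.subtype (fun _ => le_rfl) (a - c • 1) (G.sa n) (G.f_s_apply n x) (G.f_s_apply n x)
  rw [G.norm_s, hx, mul_one, mul_one] at this
  refine le_of_eq_of_le ?_ this
  simp [inner_sub_right, inner_smul_right, inner_self_eq_norm_sq_to_K, G.norm_s, hx]

lemma exc_of (a : Z.A) (h : ∀ ε > 0, ∃ (n : ℕ) (c : ℂ), ‖G.f n * (a - c • 1) * G.f n‖ ≤ ε) :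
    ∃ c : ℂ, Tendsto (fun n => ‖G.f n * (a - c • 1) * G.f n‖) atTop (𝓝 0) := by
  let u : ℕ → ℂ := fun n => ⟪G.eta n, (a : B0) (G.eta n)⟫_ℂ
  have hu : ∀ ε > 0, ∃ (n : ℕ) (c : ℂ), ∀ m ≥ n, ‖G.f m * (a - c • 1) * G.f m‖ ≤ ε ∧ ‖u m - c‖ ≤ ε := by
    intro ε hε
    obtain ⟨n, c, hn⟩ := h ε hε
    refine ⟨n, c, fun m hm => ?_⟩
    have := (G.cut_anti G (a - c • 1) hm).trans hn
    exact ⟨this, (G.num a c m _ (b0.orthonormal.1 0)).trans this⟩
  have hC : CauchySeq u := by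
    rw [Metric.cauchySeq_iff']
    intro ε hε
    obtain ⟨n, c, hn⟩ := hu (ε / 3) (by positivity)
    refine ⟨n, fun m hm => ?_⟩
    have h1 := (hn m hm).2
    have h2 := (hn n le_rfl).2
    have := dist_triangle_right (u m) (u n) c
    rw [dist_eq_norm (u m) c, dist_eq_norm (u n) c] at this
    linarith
  obtain ⟨d, hd⟩ := cauchySeq_tendsto_of_complete hC
  refine ⟨d, Metric.tendsto_atTop.mpr fun ε hε => ?_⟩
  obtain ⟨n, c, hn⟩ := hu (ε / 3) (by positivity)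
  have h1 : ‖d - c‖ ≤ ε / 3 :=
    le_of_tendsto (hd.sub_const c).norm (eventually_atTop.mpr ⟨n, fun m hm => (hn m hm).2⟩)
  refine ⟨n, fun m hm => ?_⟩
  have e : G.f m * (a - d • 1) * G.f m = G.f m * (a - c • 1) * G.f m - (d - c) • G.f m := by
    simp only [mul_sub, sub_mul, mul_smul_comm, smul_mul_assoc, mul_one, G.mono le_rfl, sub_smul]; abel
  have h2 : ‖(d - c) • G.f m‖ ≤ ε / 3 := by
    refine (norm_smul_le _ _).trans ?_
    nlinarith [pnorm (G.proj m), norm_nonneg (d - c), norm_nonneg (G.f m)]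
  rw [Real.dist_eq, sub_zero, abs_norm, e]
  linarith [norm_sub_le (G.f m * (a - c • 1) * G.f m) ((d - c) • G.f m), (hn m hm).1]

end Chain

namespace Good

variable (G : Good Z)

noncomputable def psi (a : Z.A) : ℂ := (G.exc a).choose

lemma psi_spec (a : Z.A) : Tendsto (fun n => ‖G.f n * (a - G.psi a • 1) * G.f n‖) atTop (𝓝 0) := (G.exc a).choose_spec

lemma psi_lim (a : Z.A) : Tendsto (fun n => ⟪G.eta n, (a : B0) (G.eta n)⟫_ℂ) atTop (𝓝 (G.psi a)) :=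
  tendsto_iff_norm_sub_tendsto_zero.mpr
    (squeeze_zero (fun _ => norm_nonneg _) (fun n => G.num a _ n _ (b0.orthonormal.1 0)) (G.psi_spec a))

lemma psi_fin {q : Z.A} (hq : FinRk (q : B0)) (x : Z.A) : G.psi (star (q * x) * (q * x)) = 0 := by
  rw [← norm_le_zero_iff]
  refine ge_of_tendsto' (G.psi_spec (star (q * x) * (q * x))) fun n => ?_
  obtain ⟨η, h1, h2⟩ := hq.ker ((x : B0) * G.s n)
  refine le_of_eq_of_le ?_ (G.num _ _ n η h1)
  have : (q : B0) ((x : B0) ((G.s n : B0) η)) = 0 := h2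
  simp [this]

lemma psi_rep {H : Type*} [NormedAddCommGroup H] [InnerProductSpace ℂ H] [CompleteSpace H]
    (σ : Z.A →⋆ₐ[ℂ] (H →L[ℂ] H)) (hc : ∀ a, ‖σ a‖ ≤ ‖a‖) {ξ ξ' : H} (h1 : ∀ n, σ (G.f n) ξ = ξ)
    (h2 : ∀ n, σ (G.f n) ξ' = ξ') (a : Z.A) : ⟪ξ', σ a ξ⟫_ℂ = G.psi a * ⟪ξ', ξ⟫_ℂ := by
  rw [← sub_eq_zero, ← norm_le_zero_iff]
  have := (G.psi_spec a).mul_const (‖ξ'‖ * ‖ξ‖)
  rw [zero_mul] at this
  refine ge_of_tendsto' this fun n => le_of_eq_of_le ?_ (cut σ hc _ (G.sa n) (h1 n) (h2 n))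
  simp [inner_sub_right, inner_smul_right]

end Good

/-- one step of the construction of a good point -/
def Step (f g a : Z.A) (ε : ℝ) : Prop :=
  f * g = g ∧ (∃ s : Z.A, star s * s = 1 ∧ s * star s = f - g) ∧ ∃ c : ℂ, ‖g * (a - c • 1) * g‖ ≤ ε

lemma build {X : Type*} (P : X → Z.A) (hP : ∀ x, IsStarProjection (P x)) (x0 : X) (h0 : P x0 = 1)
    (R : ℝ → X → X → Prop)
    (step : ∀ x, ∀ a : Z.A, (a : B0) ∈ Z.S → ∀ ε > 0, ∃ y, R ε x y ∧ Step (P x) (P y) a ε) :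
    ∃ (G : Good Z) (x : ℕ → X), (∀ n, G.f n = P (x n)) ∧ ∀ n, R ((1 / 2) ^ n) (x n) (x (n + 1)) := by
  obtain ⟨e, he⟩ := Z.cnt.exists_eq_range ⟨1, Z.S.one_mem⟩
  have hm : ∀ n, e n ∈ Z.S := fun n => by have : e n ∈ (Z.S : Set B0) := he ▸ ⟨n, rfl⟩; exact this
  let a : ℕ → Z.A := fun n => ⟨e n.unpair.1, Z.le (hm _)⟩
  choose nx hR hS using fun (n : ℕ) x => step x (a n) (hm _) ((1 / 2) ^ n) (by positivity)
  let x : ℕ → X := fun n => Nat.rec x0 nx n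
  have hx : ∀ n, x (n + 1) = nx n (x n) := fun _ => rfl
  choose s hs1 hs2 using fun n => (hS n (x n)).2.1
  let C : Chain Z := ⟨fun n => P (x n), s, fun n => hP _, h0, fun n => (hS n (x n)).1, hs1, hs2⟩
  refine ⟨⟨C, fun b => C.exc_of b fun ε hε => ?_⟩, x, fun _ => rfl, fun n => hR n (x n)⟩
  obtain ⟨b', hb', hd⟩ := Z.approx b (half_pos hε)
  have : (b' : B0) ∈ Set.range e := he ▸ hb'
  obtain ⟨m, hm'⟩ := this
  obtain ⟨k, hk⟩ := exists_pow_lt_of_lt_one (half_pos hε) (by norm_num : (1 / 2 : ℝ) < 1)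
  obtain ⟨c, hc⟩ := (hS (Nat.pair m k) (x (Nat.pair m k))).2.2
  have ha : a (Nat.pair m k) = b' := Subtype.ext (by simp [a, hm'])
  rw [ha, ← hx] at hc
  have h2 : (1 / 2 : ℝ) ^ (Nat.pair m k) ≤ (1 / 2) ^ k :=
    pow_le_pow_of_le_one (by norm_num) (by norm_num) (Nat.right_le_pair m k)
  refine ⟨Nat.pair m k + 1, c, ?_⟩
  set g := P (x (Nat.pair m k + 1))
  have e1 : g * (b - c • 1) * g = g * (b' - c • 1) * g + g * (b - b') * g := by noncomm_ring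
  have h3 := cut_le' (hP (x (Nat.pair m k + 1))) (hP (x (Nat.pair m k + 1))) (b - b')
  show ‖g * (b - c • 1) * g‖ ≤ ε
  rw [e1]
  linarith [norm_add_le (g * (b' - c • 1) * g) (g * (b - b') * g)]

end Vale.Agent.P070h8
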