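import Mathlib

/-! Hilbert space facts: invariant subspaces, a spectral cut, decreasing projections, Schur's lemma and a two-vector
density statement for irreducible representations. -/

namespace Vale.Agent.P070h8

open Filter Topology ContinuousLinearMap
open scoped InnerProductSpace ComplexOrder

variable {H : Type*} [NormedAddCommGroup H] [InnerProductSpace ℂ H] [CompleteSpace H]

lemma inner_star_left (T : H →L[ℂ] H) (x y : H) : ⟪star T x, y⟫_ℂ = ⟪x, T y⟫_ℂ := adjoint_inner_left T y x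

lemma inner_star_right (T : H →L[ℂ] H) (x y : H) : ⟪x, star T y⟫_ℂ = ⟪T x, y⟫_ℂ := adjoint_inner_right T x y

lemma re_inner_star_mul (b : H →L[ℂ] H) (x : H) : (⟪x, (star b * b) x⟫_ℂ).re = ‖b x‖ ^ 2 := by
  rw [ContinuousLinearMap.mul_apply, inner_star_right, inner_self_eq_norm_sq_to_K]; norm_cast

lemma exists_sqrt {p : H →L[ℂ] H} (hp : 0 ≤ p) : ∃ b, p = star b * b :=
  CStarAlgebra.nonneg_iff_eq_star_mul_self.mp hp

lemma re_inner_nonneg {p : H →L[ℂ] H} (hp : 0 ≤ p) (x : H) : 0 ≤ (⟪x, p x⟫_ℂ).re := by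
  obtain ⟨b, rfl⟩ := CStarAlgebra.nonneg_iff_eq_star_mul_self.mp hp
  rw [re_inner_star_mul]; positivity

lemma apply_eq_zero_of_re {p : H →L[ℂ] H} (hp : 0 ≤ p) (x : H) (h : (⟪x, p x⟫_ℂ).re = 0) : p x = 0 := by
  obtain ⟨b, rfl⟩ := CStarAlgebra.nonneg_iff_eq_star_mul_self.mp hp
  rw [re_inner_star_mul] at h
  have : b x = 0 := by simpa using h
  simp [this]

lemma nonneg_of_re {p : H →L[ℂ] H} (hp : star p = p) (h : ∀ x, 0 ≤ (⟪x, p x⟫_ℂ).re) : 0 ≤ p := by
  rw [ContinuousLinearMap.nonneg_iff_isPositive, ContinuousLinearMap.isPositive_def']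
  refine ⟨hp, fun x => ?_⟩
  rw [ContinuousLinearMap.reApplyInnerSelf_apply, inner_re_symm]
  simpa using h x

lemma comm_proj (K : Submodule ℂ H) [K.HasOrthogonalProjection] (T : H →L[ℂ] H)
    (h1 : ∀ x ∈ K, T x ∈ K) (h2 : ∀ x ∈ K, star T x ∈ K) (x : H) :
    K.starProjection (T x) = T (K.starProjection x) := by
  refine Submodule.eq_starProjection_of_mem_of_inner_eq_zero (h1 _ (K.starProjection_apply_mem x)) fun w hw => ?_
  rw [← map_sub, ← inner_star_right]
  exact K.starProjection_inner_eq_zero x _ (h2 w hw)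

/-- spectral cut of `f k f` at level `0` inside `f` -/
lemma spec (f k : H →L[ℂ] H) (hf : IsStarProjection f) (hk : star k = k) :
    ∃ g : H →L[ℂ] H, IsStarProjection g ∧ f * g = g ∧ g * (f * k * f) = (f * k * f) * g ∧
      (∀ x, g x = x → (⟪x, k x⟫_ℂ).re ≤ 0) ∧ (∀ x, f x = x → g x = 0 → 0 ≤ (⟪x, k x⟫_ℂ).re) := by
  set k' := f * k * f with hk'
  have hfs : star f = f := hf.isSelfAdjoint
  have hff : f * f = f := hf.isIdempotentElem
  have hsa : IsSelfAdjoint k' := by simp [IsSelfAdjoint, hk', hfs, hk, mul_assoc]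
  have c1 : Commute k' f := by
    simp only [Commute, SemiconjBy, hk']; rw [mul_assoc _ f f, hff, ← mul_assoc, ← mul_assoc, hff]
  have cp : Commute k'⁺ f := by rw [CFC.posPart_def]; exact c1.cfcₙ_real _
  have cn : Commute k'⁻ f := by rw [CFC.negPart_def]; exact c1.cfcₙ_real _
  have cpk : Commute k'⁺ k' := by rw [CFC.posPart_def]; exact (Commute.refl k').cfcₙ_real _
  let K : Submodule ℂ H := (k'⁺).ker ⊓ (1 - f).ker
  have hK : ∀ x, x ∈ K ↔ k'⁺ x = 0 ∧ f x = x := by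
    intro x; simp [K, sub_eq_zero, eq_comm (a := x)]
  have hKc : IsClosed (K : Set H) := (k'⁺).isClosed_ker.inter (1 - f).isClosed_ker
  have : CompleteSpace K := hKc.completeSpace_coe
  have inn : ∀ x, f x = x → ⟪x, k x⟫_ℂ = ⟪x, k'⁺ x⟫_ℂ - ⟪x, k'⁻ x⟫_ℂ := by
    intro x hx
    rw [← inner_sub_right, ← ContinuousLinearMap.sub_apply, CFC.posPart_sub_negPart k' hsa, hk']
    simp only [ContinuousLinearMap.mul_apply, hx]
    rw [← hfs, inner_star_right, hx]
  have hinv : ∀ x ∈ K, k' x ∈ K := by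
    intro x hx
    rw [hK] at hx ⊢
    refine ⟨?_, ?_⟩
    · rw [← ContinuousLinearMap.mul_apply, cpk.eq, ContinuousLinearMap.mul_apply, hx.1, map_zero]
    · rw [← ContinuousLinearMap.mul_apply, ← c1.eq, ContinuousLinearMap.mul_apply, hx.2]
  refine ⟨K.starProjection, isStarProjection_starProjection, ?_, ?_, ?_, ?_⟩
  · ext x; exact ((hK _).mp (K.starProjection_apply_mem x)).2
  · ext x; exact comm_proj K k' hinv (by rw [hsa.star_eq]; exact hinv) x
  · intro x hx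
    have hx' := (hK x).mp (Submodule.starProjection_eq_self_iff.mp hx)
    rw [inn x hx'.2, hx'.1]
    have := re_inner_nonneg (CFC.negPart_nonneg k') x
    simpa using this
  · intro x hx h0
    have hm : k'⁻ x ∈ K := by
      rw [hK]
      refine ⟨?_, ?_⟩
      · rw [← ContinuousLinearMap.mul_apply, CFC.posPart_mul_negPart]; rfl
      · rw [← ContinuousLinearMap.mul_apply, ← cn.eq, ContinuousLinearMap.mul_apply, hx]
    have := K.starProjection_inner_eq_zero x _ hm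
    rw [h0, sub_zero] at this
    rw [inn x hx, this, sub_zero]
    exact re_inner_nonneg (CFC.posPart_nonneg k') x

lemma proj_norm_sq {p : H →L[ℂ] H} (hp : IsStarProjection p) (x : H) : (⟪x, p x⟫_ℂ).re = ‖p x‖ ^ 2 := by
  have : p = star p * p := by rw [hp.isSelfAdjoint.star_eq, hp.isIdempotentElem.eq]
  rw [← re_inner_star_mul, ← this]

lemma proj_pyth {p q : H →L[ℂ] H} (hp : IsStarProjection p) (hq : IsStarProjection q) (h : p * q = q) (x : H) :
    ‖p x - q x‖ ^ 2 = ‖p x‖ ^ 2 - ‖q x‖ ^ 2 := by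
  have h2 : IsStarProjection (p - q) := hq.sub_of_mul_eq_right hp h
  rw [← ContinuousLinearMap.sub_apply, ← proj_norm_sq h2, ← proj_norm_sq hp, ← proj_norm_sq hq]
  simp

lemma proj_mono {R : Type*} [Ring R] (p : ℕ → R) (h0 : ∀ n, p n * p n = p n) (h : ∀ n, p n * p (n + 1) = p (n + 1))
    {n m : ℕ} (hnm : n ≤ m) : p n * p m = p m := by
  induction m, hnm using Nat.le_induction with
  | base => exact h0 n
  | succ m _ ih => rw [← h m, ← mul_assoc, ih]

/-- strong limit of a decreasing sequence of projections -/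
lemma proj_lim (p : ℕ → H →L[ℂ] H) (hp : ∀ n, IsStarProjection (p n)) (h : ∀ n, p n * p (n + 1) = p (n + 1))
    (x : H) : ∃ z, Tendsto (fun n => p n x) atTop (𝓝 z) ∧ ∀ m, p m z = z := by
  have mono := fun n m (hnm : n ≤ m) => proj_mono p (fun n => (hp n).isIdempotentElem.eq) h hnm
  have anti : Antitone fun n => ‖p n x‖ ^ 2 := by
    intro n m hnm
    have := proj_pyth (hp n) (hp m) (mono n m hnm) x
    have h2 := sq_nonneg ‖p n x - p m x‖
    simp only; linarith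
  have hb : BddBelow (Set.range fun n => ‖p n x‖ ^ 2) := ⟨0, by rintro _ ⟨n, rfl⟩; positivity⟩
  have hc := (tendsto_atTop_ciInf anti hb).cauchySeq
  have hC : CauchySeq fun n => p n x := by
    rw [Metric.cauchySeq_iff'] at hc ⊢
    intro ε hε
    obtain ⟨N, hN⟩ := hc (ε ^ 2) (by positivity)
    refine ⟨N, fun n hn => ?_⟩
    have h1 := hN n hn
    rw [Real.dist_eq, abs_sub_comm, ← proj_pyth (hp N) (hp n) (mono N n hn) x] at h1
    rw [dist_comm, dist_eq_norm]
    exact lt_of_pow_lt_pow_left₀ 2 hε.le (lt_of_abs_lt h1)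
  obtain ⟨z, hz⟩ := cauchySeq_tendsto_of_complete hC
  refine ⟨z, hz, fun m => tendsto_nhds_unique (((p m).continuous.tendsto z).comp hz) (hz.congr' ?_)⟩
  filter_upwards [eventually_ge_atTop m] with n hn
  simp only [Function.comp]
  rw [← ContinuousLinearMap.mul_apply, mono m n hn]

omit [CompleteSpace H] in
lemma norm_le_of_num (T : H →L[ℂ] H) {ε : ℝ} (hε : 0 ≤ ε) (h : ∀ x, ‖⟪T x, x⟫_ℂ‖ ≤ ε * ‖x‖ ^ 2) : ‖T‖ ≤ 4 * ε := by
  have key : ∀ x y : H, ‖x‖ ≤ 1 → ‖y‖ ≤ 1 → ‖⟪T y, x⟫_ℂ‖ ≤ 4 * ε := by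
    intro x y hx hy
    have b : ∀ z : H, ‖z‖ ≤ 2 → ‖⟪T z, z⟫_ℂ‖ ≤ 4 * ε := fun z hz =>
      (h z).trans (by nlinarith [norm_nonneg z, mul_le_mul hz hz (norm_nonneg z) (by norm_num : (0:ℝ) ≤ 2)])
    have hI : ‖Complex.I • y‖ ≤ 1 := by simpa [norm_smul] using hy
    have b1 := b (x + y) ((norm_add_le _ _).trans (by linarith))
    have b2 := b (x - y) ((norm_sub_le _ _).trans (by linarith))
    have b3 := b (x + Complex.I • y) ((norm_add_le _ _).trans (by linarith))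
    have b4 := b (x - Complex.I • y) ((norm_sub_le _ _).trans (by linarith))
    have := inner_map_polarization (T : H →ₗ[ℂ] H) x y
    simp only [ContinuousLinearMap.coe_coe] at this
    rw [this, norm_div]
    have e : ‖(4 : ℂ)‖ = 4 := by simp
    rw [e, div_le_iff₀ (by norm_num)]
    refine (norm_sub_le _ _).trans ?_
    refine (add_le_add (norm_add_le _ _) le_rfl).trans ?_
    refine (add_le_add (add_le_add (norm_sub_le _ _) le_rfl) le_rfl).trans ?_
    simp only [norm_mul, Complex.norm_I, one_mul]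
    linarith
  refine ContinuousLinearMap.opNorm_le_of_unit_norm (by positivity) fun y hy => ?_
  rcases eq_or_ne (T y) 0 with h0 | h0
  · rw [h0, norm_zero]; positivity
  · have hn : 0 < ‖T y‖ := norm_pos_iff.mpr h0
    have := key (((‖T y‖⁻¹ : ℝ) : ℂ) • T y) y (by rw [norm_smul]; simp [hn.ne']) hy.le
    rw [inner_smul_right, inner_self_eq_norm_sq_to_K, norm_mul, norm_pow] at this
    simp only [Complex.norm_real, norm_inv, norm_norm, Complex.coe_algebraMap] at this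
    rwa [sq, ← mul_assoc, inv_mul_cancel₀ hn.ne', one_mul] at this

section Irr

variable {D : Type*} [Ring D] [StarRing D] [Algebra ℂ D] (σ : D →⋆ₐ[ℂ] (H →L[ℂ] H))

/-- no closed invariant subspace besides the trivial ones -/
def Irr : Prop := ∀ K : Submodule ℂ H, IsClosed (K : Set H) → (∀ a, ∀ x ∈ K, σ a x ∈ K) → K = ⊥ ∨ K = ⊤

variable {σ}

lemma Irr.ker (hσ : Irr σ) (T : H →L[ℂ] H) (hT : ∀ a, Commute T (σ a)) : (∀ x, T x = 0 → x = 0) ∨ T = 0 := by
  rcases hσ T.ker T.isClosed_ker (fun a x hx => by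
    have hx' : T x = 0 := hx
    show T (σ a x) = 0
    rw [← ContinuousLinearMap.mul_apply, (hT a).eq, ContinuousLinearMap.mul_apply, hx', map_zero]) with h | h
  · exact Or.inl fun x hx => by have : x ∈ T.ker := hx; rwa [h] at this
  · right; ext x; have : x ∈ T.ker := h ▸ Submodule.mem_top; exact this

lemma Irr.schur_sa (hσ : Irr σ) (ξ : H) (hξ : ‖ξ‖ = 1) (T : H →L[ℂ] H) (hs : star T = T)
    (hT : ∀ a, Commute T (σ a)) : ∃ c : ℂ, T = c • 1 := by
  set c : ℝ := (⟪ξ, T ξ⟫_ℂ).re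
  set k := T - (c : ℂ) • (1 : H →L[ℂ] H) with hk
  have hsa : IsSelfAdjoint k := by simp [IsSelfAdjoint, hk, hs]
  have ck : ∀ a, Commute k (σ a) := fun a => (hT a).sub_left ((Commute.one_left _).smul_left _)
  have cp : ∀ a, Commute k⁺ (σ a) := fun a => by rw [CFC.posPart_def]; exact (ck a).cfcₙ_real _
  have cn : ∀ a, Commute k⁻ (σ a) := fun a => by rw [CFC.negPart_def]; exact (ck a).cfcₙ_real _
  have h0 : (⟪ξ, k ξ⟫_ℂ).re = 0 := by
    simp [hk, inner_sub_right, inner_smul_right, inner_self_eq_norm_sq_to_K, hξ, c]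
  have hne : ξ ≠ 0 := by rintro rfl; simp at hξ
  have hd := CFC.posPart_sub_negPart k hsa
  have fin : k⁺ = 0 → k⁻ = 0 → ∃ c : ℂ, T = c • 1 := fun h1 h2 =>
    ⟨c, by rw [h1, h2, sub_zero, hk] at hd; exact (sub_eq_zero.mp hd.symm)⟩
  rcases hσ.ker _ cp with h1 | h1
  · have h2 : k⁻ = 0 := by
      ext x; apply h1; rw [← ContinuousLinearMap.mul_apply, CFC.posPart_mul_negPart]; rfl
    rw [h2, sub_zero] at hd
    exact absurd (h1 ξ (apply_eq_zero_of_re (CFC.posPart_nonneg k) ξ (by rw [hd]; exact h0))) hne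
  · rcases hσ.ker _ cn with h2 | h2
    · rw [h1, zero_sub] at hd
      refine absurd (h2 ξ (apply_eq_zero_of_re (CFC.negPart_nonneg k) ξ ?_)) hne
      have : k⁻ = -k := (neg_eq_iff_eq_neg.mp hd)
      rw [this, ContinuousLinearMap.neg_apply, inner_neg_right, Complex.neg_re, h0, neg_zero]
    · exact fin h1 h2

lemma Irr.schur (hσ : Irr σ) (ξ : H) (hξ : ‖ξ‖ = 1) (T : H →L[ℂ] H) (hT : ∀ a, Commute T (σ a)) :
    ∃ c : ℂ, ∀ x, T x = c • x := by
  have hT' : ∀ a, Commute (star T) (σ a) := fun a => by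
    have := (hT (star a)).star_star; rwa [map_star, star_star] at this
  obtain ⟨c, hc⟩ := hσ.schur_sa ξ hξ (T + star T) (by simp [add_comm]) fun a => (hT a).add_left (hT' a)
  obtain ⟨d, hd⟩ := hσ.schur_sa ξ hξ (Complex.I • (T - star T)) (by simp [← smul_neg])
    fun a => ((hT a).sub_left (hT' a)).smul_left _
  refine ⟨(c - Complex.I * d) / 2, fun x => ?_⟩
  have h1 := congrArg (fun S : H →L[ℂ] H => S x) hc
  have h2 := congrArg (fun S : H →L[ℂ] H => Complex.I • S x) hd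
  simp only [ContinuousLinearMap.add_apply, ContinuousLinearMap.smul_apply, ContinuousLinearMap.one_apply,
    ContinuousLinearMap.sub_apply, smul_smul, Complex.I_mul_I] at h1 h2
  have : (2 : ℂ) • T x = (c - Complex.I * d) • x := by rw [sub_smul, ← h1, ← h2]; module
  rw [div_eq_inv_mul, mul_smul, ← this, smul_smul]; simp

lemma Irr.two (hσ : Irr σ) (ξ ζ α β : H) (hξ : ‖ξ‖ = 1) (h0 : ⟪ξ, ζ⟫_ℂ = 0)
    (h : ∀ a, ⟪α, σ a ζ⟫_ℂ + ⟪ξ, σ a β⟫_ℂ = 0) : ⟪α, ζ⟫_ℂ = 0 := by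
  let e := WithLp.prodContinuousLinearEquiv 2 ℂ H H
  let τ : (H →L[ℂ] H) → WithLp 2 (H × H) →L[ℂ] WithLp 2 (H × H) := fun T =>
    (e.symm : H × H →L[ℂ] _) ∘L (T.prodMap T) ∘L (e : _ →L[ℂ] H × H)
  have τa : ∀ T (x y : H), τ T (WithLp.toLp 2 (x, y)) = WithLp.toLp 2 (T x, T y) := fun _ _ _ => rfl
  have τs : ∀ T, star (τ T) = τ (star T) := by
    intro T
    symm
    refine (ContinuousLinearMap.eq_adjoint_iff _ _).mpr fun u v => ?_
    obtain ⟨x, y⟩ := u; obtain ⟨z, w⟩ := v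
    rw [τa, τa]; simp [inner_star_left]
  let L : D →ₗ[ℂ] WithLp 2 (H × H) :=
    { toFun := fun a => WithLp.toLp 2 (σ a ζ, σ a β)
      map_add' := fun a b => by simp [← WithLp.toLp_add]
      map_smul' := fun c a => by simp [← WithLp.toLp_smul] }
  have La : ∀ a, L a = WithLp.toLp 2 (σ a ζ, σ a β) := fun _ => rfl
  let M := L.range.topologicalClosure
  have : CompleteSpace M := L.range.isClosed_topologicalClosure.completeSpace_coe
  have inv : ∀ a, ∀ v ∈ M, τ (σ a) v ∈ M := by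
    intro a v hv
    refine map_mem_closure (τ (σ a)).continuous hv ?_
    rintro _ ⟨b, rfl⟩
    exact ⟨a * b, by rw [La, La, τa]; simp⟩
  have cm : ∀ a v, M.starProjection (τ (σ a) v) = τ (σ a) (M.starProjection v) := fun a =>
    comm_proj M _ (inv a) (by rw [τs, ← map_star]; exact inv _)
  let E : (H →L[ℂ] H × H) → (H × H →L[ℂ] H) → H →L[ℂ] H := fun i p =>
    p ∘L (e : _ →L[ℂ] H × H) ∘L M.starProjection ∘L (e.symm : H × H →L[ℂ] _) ∘L i
  have c11 : ∀ a, Commute (E (inl ℂ H H) (fst ℂ H H)) (σ a) := fun a => by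
    ext x; have := congrArg (fun v => (WithLp.ofLp v).1) (cm a (WithLp.toLp 2 (x, 0)))
    rw [τa, map_zero] at this; exact this
  have c12 : ∀ a, Commute (E (inr ℂ H H) (fst ℂ H H)) (σ a) := fun a => by
    ext x; have := congrArg (fun v => (WithLp.ofLp v).1) (cm a (WithLp.toLp 2 (0, x)))
    rw [τa, map_zero] at this; exact this
  have c21 : ∀ a, Commute (E (inl ℂ H H) (snd ℂ H H)) (σ a) := fun a => by
    ext x; have := congrArg (fun v => (WithLp.ofLp v).2) (cm a (WithLp.toLp 2 (x, 0)))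
    rw [τa, map_zero] at this; exact this
  have c22 : ∀ a, Commute (E (inr ℂ H H) (snd ℂ H H)) (σ a) := fun a => by
    ext x; have := congrArg (fun v => (WithLp.ofLp v).2) (cm a (WithLp.toLp 2 (0, x)))
    rw [τa, map_zero] at this; exact this
  obtain ⟨a, ha⟩ := hσ.schur ξ hξ _ c11
  obtain ⟨b, hb⟩ := hσ.schur ξ hξ _ c12
  obtain ⟨c, hc⟩ := hσ.schur ξ hξ _ c21
  obtain ⟨d, hd⟩ := hσ.schur ξ hξ _ c22
  have hE : ∀ x y : H, M.starProjection (WithLp.toLp 2 (x, y)) = WithLp.toLp 2 (a • x + b • y, c • x + d • y) := by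
    intro x y
    have : (WithLp.toLp 2 (x, y) : WithLp 2 (H × H)) = WithLp.toLp 2 (x, 0) + WithLp.toLp 2 (0, y) := by
      simp [← WithLp.toLp_add]
    rw [this, map_add, ← ha, ← hb, ← hc, ← hd]; rfl
  have hmem : WithLp.toLp 2 (ζ, β) ∈ M := L.range.le_topologicalClosure ⟨1, by rw [La]; simp⟩
  have hfix := Submodule.starProjection_eq_self_iff.mpr hmem
  rw [hE] at hfix
  have hfix' := congrArg WithLp.ofLp hfix
  simp only [Prod.mk.injEq] at hfix'
  have horth : ∀ v ∈ M, ⟪WithLp.toLp 2 (α, ξ), v⟫_ℂ = 0 := by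
    intro v hv
    have hc : IsClosed {v : WithLp 2 (H × H) | ⟪WithLp.toLp 2 (α, ξ), v⟫_ℂ = 0} :=
      isClosed_eq (by fun_prop) continuous_const
    refine closure_minimal ?_ hc hv
    rintro _ ⟨b, rfl⟩
    simpa [La] using h b
  let T : H →L[ℂ] H := 1 - (innerSL ℂ ξ).smulRight ξ
  have hTζ : T ζ = ζ := by simp [T, h0]
  have hm2 : WithLp.toLp 2 (T ζ, T β) ∈ M := by
    rw [← Submodule.starProjection_eq_self_iff, hE, ← map_smul, ← map_smul, ← map_smul, ← map_smul, ← map_add,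
      ← map_add, hfix'.1, hfix'.2]
  have := horth _ hm2
  rw [hTζ] at this
  simpa [T, inner_sub_right, inner_smul_right, inner_self_eq_norm_sq_to_K, hξ] using this

/-- two-vector density: `h ζ ≈ ζ` and `h* ξ ≈ 0` -/
lemma Irr.dens (hσ : Irr σ) (ξ ζ : H) (hξ : ‖ξ‖ = 1) (h0 : ⟪ξ, ζ⟫_ℂ = 0) {ε : ℝ} (hε : 0 < ε) :
    ∃ h : D, ‖σ h ζ - ζ‖ < ε ∧ ‖σ (star h) ξ‖ < ε := by
  let N : Set (H × H) := Set.range fun a => (σ a ζ, star (σ a) ξ)
  have hN : Convex ℝ N := by
    rintro _ ⟨a, rfl⟩ _ ⟨b, rfl⟩ s t _ _ _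
    refine ⟨(s : ℂ) • a + (t : ℂ) • b, ?_⟩
    simp only [map_add, map_smul, star_add, star_smul]
    simp
  have hmem : (ζ, (0 : H)) ∈ closure N := by
    by_contra hn
    obtain ⟨f, u, h1, h2⟩ := RCLike.geometric_hahn_banach_closed_point (𝕜 := ℂ) hN.closure isClosed_closure hn
    let α := (InnerProductSpace.toDual ℂ H).symm (f ∘L inl ℂ H H)
    let β := (InnerProductSpace.toDual ℂ H).symm (f ∘L inr ℂ H H)
    have hf : ∀ x y, f (x, y) = ⟪α, x⟫_ℂ + ⟪β, y⟫_ℂ := by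
      intro x y
      rw [InnerProductSpace.toDual_symm_apply, InnerProductSpace.toDual_symm_apply]
      simp [← map_add]
    have key : ∀ a, (⟪α, σ a ζ⟫_ℂ + ⟪ξ, σ a β⟫_ℂ).re < u := by
      intro a
      have := h1 _ (subset_closure ⟨a, rfl⟩)
      rw [hf, inner_star_right, map_add, inner_re_symm (σ a β)] at this
      simpa using this
    have lin : ∀ (c : ℂ) a, ⟪α, σ (c • a) ζ⟫_ℂ + ⟪ξ, σ (c • a) β⟫_ℂ = c * (⟪α, σ a ζ⟫_ℂ + ⟪ξ, σ a β⟫_ℂ) := by
      intro c a; simp [inner_smul_right, mul_add]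
    have z : ∀ a, ⟪α, σ a ζ⟫_ℂ + ⟪ξ, σ a β⟫_ℂ = 0 := by
      intro a
      by_contra hne
      have := key (((u : ℂ) / (⟪α, σ a ζ⟫_ℂ + ⟪ξ, σ a β⟫_ℂ)) • a)
      rw [lin, div_mul_cancel₀ _ hne] at this
      simp at this
    have h3 := hσ.two ξ ζ α β hξ h0 z
    have h4 := key 1
    rw [z] at h4
    rw [hf, h3] at h2
    simp at h2 h4
    linarith
  obtain ⟨_, ⟨a, rfl⟩, ha⟩ := Metric.mem_closure_iff.mp hmem ε hε
  rw [Prod.dist_eq, max_lt_iff, dist_comm, dist_eq_norm, dist_comm, dist_eq_norm, sub_zero] at ha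
  exact ⟨a, ha.1, by rw [map_star]; exact ha.2⟩

end Irr

end Vale.Agent.P070h8
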