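import Vale.Agent.P070h8.Good

/-! Existence of a good point, and of a good point with a fixed unit vector in each irreducible representation. -/

namespace Vale.Agent.P070h8

open Filter Topology
open scoped InnerProductSpace ComplexOrder

variable {Z : Sys}

lemma proj_of_coe {p : Z.A} (h : IsStarProjection (p : B0)) : IsStarProjection p :=
  ⟨Subtype.ext h.isIdempotentElem.eq, Subtype.ext h.isSelfAdjoint.star_eq⟩

lemma iso' {p : Z.A} (hS : (p : B0) ∈ Z.S) (hp : IsStarProjection p) (h : ¬ FinRk (p : B0)) :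
    ∃ s : Z.A, (s : B0) ∈ Z.S ∧ star s * s = 1 ∧ s * star s = p := by
  obtain ⟨s, h1, h2, h3⟩ := Z.iso _ hS (hp.map Z.A.subtype) h
  exact ⟨⟨s, Z.le h1⟩, h1, Subtype.ext h2, Subtype.ext h3⟩

lemma two' (Z : Sys) : ∃ s t : Z.A, (s : B0) ∈ Z.S ∧ (t : B0) ∈ Z.S ∧ star s * s = 1 ∧ star t * t = 1 ∧ star s * t = 0 := by
  obtain ⟨s, hs, t, ht, h1, h2, h3⟩ := Z.two
  exact ⟨⟨s, Z.le hs⟩, ⟨t, Z.le ht⟩, hs, ht, Subtype.ext h1, Subtype.ext h2, Subtype.ext h3⟩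

lemma spec' {f k : Z.A} (hf : (f : B0) ∈ Z.S) (hk : (k : B0) ∈ Z.S) (hp : IsStarProjection f) (hs : star k = k) :
    ∃ g : Z.A, (g : B0) ∈ Z.S ∧ IsStarProjection g ∧ f * g = g ∧ g * (f * k * f) = (f * k * f) * g ∧
      (∀ x, (g : B0) x = x → (⟪x, (k : B0) x⟫_ℂ).re ≤ 0) ∧
      (∀ x, (f : B0) x = x → (g : B0) x = 0 → 0 ≤ (⟪x, (k : B0) x⟫_ℂ).re) := by
  obtain ⟨g, h0, h1, h2, h3, h4, h5⟩ := Z.spec _ hf _ hk (hp.map Z.A.subtype) (congrArg Subtype.val hs)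
  exact ⟨⟨g, Z.le h0⟩, h0, proj_of_coe h1, Subtype.ext h2, Subtype.ext h3, h4, h5⟩

lemma sqrt' {y : Z.A} (hy : (y : B0) ∈ Z.S) (h : 0 ≤ (y : B0)) : ∃ z : Z.A, y = star z * z := by
  obtain ⟨z, mz, hz⟩ := Z.sqrt _ hy h
  exact ⟨⟨z, Z.le mz⟩, Subtype.ext hz⟩

lemma add_mem_S {a b : Z.A} (ha : (a : B0) ∈ Z.S) (hb : (b : B0) ∈ Z.S) : ((a + b : Z.A) : B0) ∈ Z.S :=
  Z.S.add_mem ha hb

lemma mul_mem_S {a b : Z.A} (ha : (a : B0) ∈ Z.S) (hb : (b : B0) ∈ Z.S) : ((a * b : Z.A) : B0) ∈ Z.S :=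
  Z.S.mul_mem ha hb

lemma sub_mem_S {a b : Z.A} (ha : (a : B0) ∈ Z.S) (hb : (b : B0) ∈ Z.S) : ((a - b : Z.A) : B0) ∈ Z.S :=
  Z.S.sub_mem ha hb

lemma star_mem_S {a : Z.A} (ha : (a : B0) ∈ Z.S) : ((star a : Z.A) : B0) ∈ Z.S := Z.star_mem _ ha

lemma one_mem_S : ((1 : Z.A) : B0) ∈ Z.S := Z.S.one_mem

lemma smul_mem_S {a : Z.A} (ha : (a : B0) ∈ Z.S) (p q : ℚ) :
    ((((p : ℂ) + (q : ℂ) * Complex.I) • a : Z.A) : B0) ∈ Z.S := by
  have := Z.S.mul_mem (Z.sc p q) ha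
  rwa [smul_mul_assoc, one_mul] at this

lemma proj_iso {R : Type*} [Ring R] [StarRing R] {s : R} (h : star s * s = 1) : IsStarProjection (s * star s) :=
  ⟨by rw [IsIdempotentElem, mul_assoc, ← mul_assoc (star s), h, one_mul], by simp [IsSelfAdjoint]⟩

lemma app_eq {a b c : Z.A} (h : a * b = c) (x : H0) : (a : B0) ((b : B0) x) = (c : B0) x :=
  congrArg (fun T : Z.A => (T : B0) x) h

lemma finish {f g t : Z.A} (hf : (f : B0) ∈ Z.S) (hg : (g : B0) ∈ Z.S) (pf : IsStarProjection f)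
    (pg : IsStarProjection g) (h : f * g = g) (ht : star t * t = 1) (h1 : f * t = t) (h2 : g * t = 0) :
    ∃ s : Z.A, star s * s = 1 ∧ s * star s = f - g := by
  have e : (f - g) * t = t := by rw [sub_mul, h1, h2, sub_zero]
  obtain ⟨s, -, h3⟩ := iso' (p := f - g) (Z.S.sub_mem hf hg) (pg.sub_of_mul_eq_right pf h)
    (not_finRk_iso (t : B0) (congrArg Subtype.val ht) (congrArg Subtype.val e))
  exact ⟨s, h3⟩

lemma bis {b : Z.A} (hb : (b : B0) ∈ Z.S) {f : Z.A} (hf : (f : B0) ∈ Z.S) (pf : IsStarProjection f)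
    (hi : ¬ FinRk (f : B0)) {δ : ℝ} (hδ : 0 < δ) :
    ∃ g : Z.A, (g : B0) ∈ Z.S ∧ IsStarProjection g ∧ ¬ FinRk (g : B0) ∧ f * g = g ∧ ∃ c : ℝ,
      ∀ x, (g : B0) x = x → |(⟪x, (b : B0) x⟫_ℂ).re - c * ‖x‖ ^ 2| ≤ δ * ‖x‖ ^ 2 := by
  obtain ⟨M, hM⟩ := exists_rat_gt ‖(b : B0)‖
  have key : ∀ N : ℕ, ∃ g : Z.A, (g : B0) ∈ Z.S ∧ IsStarProjection g ∧ ¬ FinRk (g : B0) ∧ f * g = g ∧ ∃ c : ℚ,
      ∀ x, (g : B0) x = x → |(⟪x, (b : B0) x⟫_ℂ).re - c * ‖x‖ ^ 2| ≤ M * (1 / 2) ^ N * ‖x‖ ^ 2 := by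
    intro N
    induction N with
    | zero =>
      refine ⟨f, hf, pf, hi, pf.isIdempotentElem.eq, 0, fun x _ => ?_⟩
      have h1 := (Complex.abs_re_le_norm _).trans (norm_inner_le_norm (𝕜 := ℂ) x ((b : B0) x))
      have h2 := (b : B0).le_of_opNorm_le hM.le x
      simp only [Rat.cast_zero, zero_mul, sub_zero, pow_zero, mul_one]
      nlinarith [norm_nonneg x]
    | succ N ih =>
      obtain ⟨g, hg, pg, ig, fg, c, hc⟩ := ih
      let k : Z.A := b + star b - (((2 * c : ℚ) : ℂ) + ((0 : ℚ) : ℂ) * Complex.I) • 1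
      have hk : ∀ x, (⟪x, (k : B0) x⟫_ℂ).re = 2 * ((⟪x, (b : B0) x⟫_ℂ).re - c * ‖x‖ ^ 2) := by
        intro x
        have h1 : (⟪(b : B0) x, x⟫_ℂ).re = (⟪x, (b : B0) x⟫_ℂ).re := inner_re_symm (𝕜 := ℂ) _ _
        have h2 : ((‖x‖ : ℂ) ^ 2).re = ‖x‖ ^ 2 := by norm_cast
        have h3 : ((‖x‖ : ℂ) ^ 2).im = 0 := by norm_cast
        simp [k, inner_star_right, inner_self_eq_norm_sq_to_K, h1, h2, h3]
        ring
      obtain ⟨g', h0, h1, h2, -, h4, h5⟩ := spec' (k := k) hg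
        (Z.S.sub_mem (Z.S.add_mem hb (Z.star_mem _ hb)) (smul_mem_S Z.S.one_mem _ _)) pg (by simp [k, add_comm])
      by_cases hfin : FinRk (g' : B0)
      · have p2 : IsStarProjection (g - g') := h1.sub_of_mul_eq_right pg h2
        refine ⟨g - g', Z.S.sub_mem hg h0, p2, fun h => ig ?_, ?_, c + M * (1 / 2) ^ (N + 1), fun x hx => ?_⟩
        · have := h.add hfin
          rwa [← AddMemClass.coe_add, sub_add_cancel] at this
        · rw [mul_sub, fg, ← h2, ← mul_assoc, fg]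
        · have e1 : (g : B0) x = x := by
            rw [← hx, app_eq (c := g - g') (by rw [mul_sub, h2, pg.isIdempotentElem.eq])]
          have e2 : (g' : B0) x = 0 := by
            rw [← hx, app_eq (c := 0) (by rw [mul_sub, comm_of_le pg h1 h2, h1.isIdempotentElem.eq, sub_self])]; rfl
          have a1 := h5 x e1 e2
          have a2 := abs_le.mp (hc x e1)
          rw [hk] at a1
          push_cast
          rw [abs_le, pow_succ (1 / 2 : ℝ) N]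
          constructor <;> nlinarith
      · refine ⟨g', h0, h1, hfin, by rw [← h2, ← mul_assoc, fg], c - M * (1 / 2) ^ (N + 1), fun x hx => ?_⟩
        have e1 : (g : B0) x = x := by rw [← hx, app_eq h2]
        have a1 := h4 x hx
        have a2 := abs_le.mp (hc x e1)
        rw [hk] at a1
        push_cast
        rw [abs_le, pow_succ (1 / 2 : ℝ) N]
        constructor <;> nlinarith
  have hM0 : (0 : ℝ) < M := (norm_nonneg _).trans_lt hM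
  obtain ⟨N, hN⟩ := exists_pow_lt_of_lt_one (div_pos hδ hM0) (by norm_num : (1 / 2 : ℝ) < 1)
  obtain ⟨g, h1, h2, h3, h4, c, hc⟩ := key N
  refine ⟨g, h1, h2, h3, h4, c, fun x hx => (hc x hx).trans ?_⟩
  rw [lt_div_iff₀' hM0] at hN
  gcongr

lemma base_cut {f a : Z.A} (hf : (f : B0) ∈ Z.S) (pf : IsStarProjection f) (hi : ¬ FinRk (f : B0))
    (ha : (a : B0) ∈ Z.S) {ε : ℝ} (hε : 0 < ε) : ∃ g : Z.A, (g : B0) ∈ Z.S ∧ IsStarProjection g ∧ ¬ FinRk (g : B0) ∧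
      f * g = g ∧ ∃ c : ℂ, ‖g * (a - c • 1) * g‖ ≤ ε := by
  obtain ⟨g1, a1, a2, a3, a4, c, hc⟩ := bis ha hf pf hi (δ := ε / 8) (by positivity)
  obtain ⟨g, b1, b2, b3, b4, d, hd⟩ := bis (smul_mem_S ha 0 (-1)) a1 a2 a3 (δ := ε / 8) (by positivity)
  have fg : f * g = g := by rw [← b4, ← mul_assoc, a4]
  have hT : ‖g * (a - ((c : ℂ) + d * Complex.I) • 1) * g‖ ≤ ε := by
    refine (norm_le_of_num ((g * (a - ((c : ℂ) + d * Complex.I) • 1) * g : Z.A) : B0) (ε := ε / 4) (by positivity)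
      fun x => ?_).trans_eq (by ring)
    set y := (g : B0) x with hy
    have e1 : (g : B0) y = y := app_eq b2.isIdempotentElem.eq x
    have e2 : (g1 : B0) y = y := app_eq b4 x
    have hs : star (g : B0) = g := congrArg Subtype.val b2.isSelfAdjoint.star_eq
    have e3 : ⟪x, ((g * (a - ((c : ℂ) + d * Complex.I) • 1) * g : Z.A) : B0) x⟫_ℂ
        = ⟪y, (a : B0) y⟫_ℂ - ((c : ℂ) + d * Complex.I) * ((‖y‖ ^ 2 : ℝ) : ℂ) := by
      show ⟪x, (g : B0) (((a : B0) - ((c : ℂ) + d * Complex.I) • (1 : B0)) y)⟫_ℂ = _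
      rw [← hs, inner_star_right, ← hy]
      simp [inner_self_eq_norm_sq_to_K]
    have r1 := hc y e2
    have r2 := hd y e1
    have e4 : (⟪y, ((((((0 : ℚ) : ℂ) + ((-1 : ℚ) : ℂ) * Complex.I) • a : Z.A)) : B0) y⟫_ℂ).re
        = (⟪y, (a : B0) y⟫_ℂ).im := by simp
    rw [e4] at r2
    have hyx : ‖y‖ ^ 2 ≤ ‖x‖ ^ 2 := by
      have := (g : B0).le_of_opNorm_le (pnorm b2) x
      rw [one_mul] at this
      gcongr
    rw [norm_inner_symm, e3]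
    refine (Complex.norm_le_abs_re_add_abs_im _).trans ?_
    simp only [Complex.sub_re, Complex.mul_re, Complex.add_re, Complex.ofReal_re, Complex.I_re, Complex.ofReal_im,
      Complex.I_im, Complex.add_im, Complex.mul_im, Complex.sub_im, mul_zero, mul_one, sub_zero, add_zero, zero_add,
      zero_mul]
    nlinarith
  exact ⟨g, b1, b2, b3, fg, _, hT⟩

lemma base_step {f a : Z.A} (hf : (f : B0) ∈ Z.S) (pf : IsStarProjection f) (hi : ¬ FinRk (f : B0))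
    (ha : (a : B0) ∈ Z.S) {ε : ℝ} (hε : 0 < ε) : ∃ g : Z.A, ((g : B0) ∈ Z.S ∧ IsStarProjection g ∧ ¬ FinRk (g : B0)) ∧
      Step f g a ε := by
  obtain ⟨s1, s2, m1, m2, i1, i2, o12⟩ := two' Z
  obtain ⟨g, b1, b2, b3, fg, c, hT⟩ := base_cut hf pf hi ha hε
  obtain ⟨s, hs, s1', s2'⟩ := iso' b1 b2 b3
  have gs : g * s = s := by rw [← s2', mul_assoc, s1', mul_one]
  have i3 : star (s * s1) * (s * s1) = 1 := by rw [star_mul, mul_assoc, ← mul_assoc (star s), s1', one_mul, i1]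
  have i4 : star (s * s2) * (s * s2) = 1 := by rw [star_mul, mul_assoc, ← mul_assoc (star s), s1', one_mul, i2]
  have i5 : star (s * s1) * (s * s2) = 0 := by rw [star_mul, mul_assoc, ← mul_assoc (star s), s1', one_mul, o12]
  have ms : ((s * s1 : Z.A) : B0) ∈ Z.S := Z.S.mul_mem hs m1
  have g1 : g * (s * s1) = s * s1 := by rw [← mul_assoc, gs]
  have g2 : f * (s * s2) = s * s2 := by rw [← gs, ← mul_assoc, ← mul_assoc, fg]
  generalize s * s1 = u at *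
  generalize s * s2 = v at *
  have pg := proj_iso i3
  have mg : ((u * star u : Z.A) : B0) ∈ Z.S := Z.S.mul_mem ms (Z.star_mem _ ms)
  have gg : g * (u * star u) = u * star u := by rw [← mul_assoc, g1]
  have fgg : f * (u * star u) = u * star u := by rw [← gg, ← mul_assoc, fg]
  have e : u * star u * u = u := by rw [mul_assoc, i3, mul_one]
  exact ⟨u * star u, ⟨mg, pg, not_finRk_iso (u : B0) (congrArg Subtype.val i3) (congrArg Subtype.val e)⟩,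
    fgg, finish hf mg pf pg fgg i4 g2 (by rw [mul_assoc, i5, mul_zero]), c,
    (cut_le pg pg gg (comm_of_le b2 pg gg) _).trans hT⟩

theorem good_nonempty (Z : Sys) : Nonempty (Good Z) := by
  let X := {p : Z.A // (p : B0) ∈ Z.S ∧ IsStarProjection p ∧ ¬ FinRk (p : B0)}
  obtain ⟨G, -⟩ := build (X := X) (fun x => x.1) (fun x => x.2.2.1)
    ⟨1, Z.S.one_mem, .one _, not_finRk_iso (s := 1) 1 (by simp) (by simp)⟩ rfl (fun _ _ _ => True) (by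
    rintro ⟨f, hf, pf, hi⟩ a ha ε hε
    obtain ⟨g, h1, h2⟩ := base_step hf pf hi ha hε
    exact ⟨⟨g, h1⟩, trivial, h2⟩)
  exact ⟨G⟩

section Rep

variable {H : Type*} [NormedAddCommGroup H] [InnerProductSpace ℂ H] [CompleteSpace H]
  (σ : Z.A →⋆ₐ[ℂ] (H →L[ℂ] H))

lemma rep_sq (a : Z.A) (x : H) : (⟪x, σ (star a * a) x⟫_ℂ).re = ‖σ a x‖ ^ 2 := by
  rw [map_mul, map_star, re_inner_star_mul]

lemma small {p : Z.A} (hS : (p : B0) ∈ Z.S) (hp : IsStarProjection p) (hi : ¬ FinRk (p : B0)) (ξ : H) {δ : ℝ}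
    (hδ : 0 < δ) : ∃ s : Z.A, (s : B0) ∈ Z.S ∧ star s * s = 1 ∧ p * s = s ∧ ‖σ (s * star s) ξ‖ ≤ δ := by
  obtain ⟨s1, s2, m1, m2, i1, i2, o12⟩ := two' Z
  have key : ∀ N : ℕ, ∃ s : Z.A, (s : B0) ∈ Z.S ∧ star s * s = 1 ∧ p * s = s ∧
      ‖σ (star s) ξ‖ ^ 2 ≤ (1 / 2) ^ N * ‖ξ‖ ^ 2 := by
    intro N
    induction N with
    | zero =>
      obtain ⟨s, h1, h2, h3⟩ := iso' hS hp hi
      refine ⟨s, h1, h2, by rw [← h3, mul_assoc, h2, mul_one], ?_⟩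
      have a := rep_sq σ (star s) ξ
      rw [star_star, h3, proj_norm_sq (hp.map σ)] at a
      have b := (σ p).le_of_opNorm_le (hp.map σ).norm_le ξ
      rw [← a, pow_zero, one_mul]; rw [one_mul] at b; gcongr
    | succ N ih =>
      obtain ⟨s, h1, h2, h3, h4⟩ := ih
      have pq : IsStarProjection (s1 * star s1 + s2 * star s2) :=
        (proj_iso i1).add (proj_iso i2) (by rw [mul_assoc, ← mul_assoc (star s1), o12, zero_mul, mul_zero])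
      set v := σ (star s) ξ with hv
      have a := proj_norm_sq (pq.map σ) v
      have b := (σ _).le_of_opNorm_le (pq.map σ).norm_le v
      have a1 := rep_sq σ (star s1) v
      have a2 := rep_sq σ (star s2) v
      rw [star_star] at a1 a2
      have c : ‖σ (s1 * star s1 + s2 * star s2) v‖ ^ 2 ≤ ‖v‖ ^ 2 := by rw [one_mul] at b; gcongr
      rw [← a, map_add, add_apply, inner_add_right, Complex.add_re, a1, a2] at c
      have gen : ∀ t : Z.A, (t : B0) ∈ Z.S → star t * t = 1 → ‖σ (star t) v‖ ^ 2 ≤ ‖v‖ ^ 2 / 2 →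
          ∃ s : Z.A, (s : B0) ∈ Z.S ∧ star s * s = 1 ∧ p * s = s ∧ ‖σ (star s) ξ‖ ^ 2 ≤ (1 / 2) ^ (N + 1) * ‖ξ‖ ^ 2 :=
        fun t m i h => ⟨s * t, Z.S.mul_mem h1 m, by rw [star_mul, mul_assoc, ← mul_assoc (star s), h2, one_mul, i],
          by rw [← mul_assoc, h3], by rw [star_mul, rep_mul, ← hv, pow_succ (1 / 2 : ℝ) N]; linarith⟩
      by_cases h : ‖σ (star s1) v‖ ^ 2 ≤ ‖v‖ ^ 2 / 2
      · exact gen s1 m1 i1 h
      · exact gen s2 m2 i2 (by linarith)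
  obtain ⟨N, hN⟩ := exists_pow_lt_of_lt_one (show 0 < δ ^ 2 / (‖ξ‖ ^ 2 + 1) by positivity) (by norm_num : (1 / 2 : ℝ) < 1)
  obtain ⟨s, h1, h2, h3, h4⟩ := key N
  refine ⟨s, h1, h2, h3, ?_⟩
  rw [rep_mul, norm_iso (by rw [← map_star, ← map_mul, h2, map_one])]
  rw [lt_div_iff₀ (by positivity)] at hN
  refine le_of_sq_le_sq ?_ hδ.le
  have : 0 < (1 / 2 : ℝ) ^ N := by positivity
  nlinarith

lemma rep_cont (hc : ∀ a, ‖σ a‖ ≤ ‖a‖) : Continuous σ :=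
  AddMonoidHomClass.continuous_of_bound σ 1 fun a => by rw [one_mul]; exact hc a

lemma pick (hc : ∀ a, ‖σ a‖ ≤ ‖a‖) (hirr : Irr σ) {f : Z.A} (pf : IsStarProjection f) (a : Z.A) {ξ : H} (h1 : ‖ξ‖ = 1)
    (hf : σ f ξ = ξ) {δ : ℝ} (hδ : 0 < δ) : ∃ h : Z.A, (h : B0) ∈ Z.S ∧ ∃ p q : ℚ,
      ‖σ ((1 - h) * (f * (a - ((p : ℂ) + (q : ℂ) * Complex.I) • 1) * f)) ξ‖ < δ ∧
      ‖σ (star (h * (f * (a - ((p : ℂ) + (q : ℂ) * Complex.I) • 1) * f))) ξ‖ < δ := by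
  have cσ := rep_cont σ hc
  let U : Set (Z.A × ℂ) := {z | ‖σ ((1 - z.1) * (f * (a - z.2 • 1) * f)) ξ‖ < δ} ∩
    {z | ‖σ (star (z.1 * (f * (a - z.2 • 1) * f))) ξ‖ < δ}
  have hU : IsOpen U := (isOpen_lt (by fun_prop) continuous_const).inter (isOpen_lt (by fun_prop) continuous_const)
  have hne : U.Nonempty := by
    set c := ⟪ξ, σ a ξ⟫_ℂ with hc0
    set a' := f * (a - c • 1) * f with ha'
    have h0 : ⟪ξ, σ a' ξ⟫_ℂ = 0 := by
      rw [ha', rep_mul, rep_mul, hf, ← pf.isSelfAdjoint.star_eq, map_star, inner_star_right, hf]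
      simp [inner_self_eq_norm_sq_to_K, h1, hc0]
    obtain ⟨h, e1, e2⟩ := hirr.dens ξ (σ a' ξ) h1 h0 (show 0 < δ / (‖star a'‖ + 1) by positivity)
    rw [lt_div_iff₀ (by positivity)] at e1 e2
    refine ⟨(h, c), ?_, ?_⟩
    · show ‖σ ((1 - h) * a') ξ‖ < δ
      rw [rep_mul, map_sub, map_one, sub_apply, one_apply_eq_self, norm_sub_rev]
      nlinarith [norm_nonneg (σ h (σ a' ξ) - σ a' ξ), norm_nonneg (star a')]
    · show ‖σ (star (h * a')) ξ‖ < δ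
      rw [star_mul, rep_mul]
      nlinarith [(σ (star a')).le_of_opNorm_le (hc _) (σ (star h) ξ), norm_nonneg (σ (star h) ξ)]
  have d1 : Dense {h : Z.A | (h : B0) ∈ Z.S} := fun b => Metric.mem_closure_iff.mpr fun ε hε => by
    obtain ⟨b', h1, h2⟩ := Z.approx b hε
    exact ⟨b', h1, by rwa [dist_eq_norm]⟩
  obtain ⟨⟨h, c⟩, ⟨m, ⟨p, q⟩, rfl⟩, u1, u2⟩ := (d1.prod dense_qi).exists_mem_open hU hne
  exact ⟨h, m, p, q, u1, u2⟩

lemma rep_k (l1 l2 : Z.A) (t : ℚ) (x : H) :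
    (⟪x, σ (star l1 * l1 + star l2 * l2 - (((t : ℚ) : ℂ) + ((0 : ℚ) : ℂ) * Complex.I) • 1) x⟫_ℂ).re
      = ‖σ l1 x‖ ^ 2 + ‖σ l2 x‖ ^ 2 - t * ‖x‖ ^ 2 := by
  rw [map_sub, map_add, sub_apply, add_apply, inner_sub_right, inner_add_right, Complex.sub_re, Complex.add_re,
    rep_sq, rep_sq]
  have h2 : ((‖x‖ : ℂ) ^ 2).re = ‖x‖ ^ 2 := by norm_cast
  have h3 : ((‖x‖ : ℂ) ^ 2).im = 0 := by norm_cast
  simp [inner_self_eq_norm_sq_to_K, h2, h3]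

lemma rep_cj {g : Z.A} (pg : IsStarProjection g) (k : Z.A) (x : H) :
    ⟪x, σ (g * k * g) x⟫_ℂ = ⟪σ g x, σ k (σ g x)⟫_ℂ := by
  rw [rep_mul, rep_mul, ← inner_star_right, ← map_star, pg.isSelfAdjoint.star_eq]

lemma main_alg {f g K : Z.A} (pf : IsStarProjection f) (pg : IsStarProjection g) (k : Z.A) (hK : K = f * k * f)
    (fg : f * g = g) (c : g * K = K * g) : K = g * k * g + (f - g) * k * (f - g) := by
  have gf := comm_of_le pf pg fg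
  have ff := pf.isIdempotentElem.eq
  have gg := pg.isIdempotentElem.eq
  have e1 : g * k * f = g * k * g := by
    calc g * k * f = g * (g * K) := by rw [hK, ← mul_assoc, gg, ← mul_assoc, ← mul_assoc, gf]
      _ = g * k * g := by rw [c, hK, mul_assoc _ f g, fg, ← mul_assoc, ← mul_assoc, gf]
  have e2 : f * k * g = g * k * g := by
    calc f * k * g = (K * g) * g := by rw [hK, mul_assoc _ g g, gg, mul_assoc _ f g, fg]
      _ = g * k * g := by rw [← c, hK, mul_assoc g _ g, mul_assoc _ f g, fg, ← mul_assoc, ← mul_assoc, gf]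
  simp only [sub_mul, mul_sub]
  rw [e1, e2, hK]; abel

noncomputable def kOp (l1 l2 : Z.A) (t : ℚ) : Z.A :=
  star l1 * l1 + star l2 * l2 - (((t : ℚ) : ℂ) + ((0 : ℚ) : ℂ) * Complex.I) • 1

lemma rep_k' (l1 l2 : Z.A) (t : ℚ) (x : H) :
    (⟪x, σ (kOp l1 l2 t) x⟫_ℂ).re = ‖σ l1 x‖ ^ 2 + ‖σ l2 x‖ ^ 2 - t * ‖x‖ ^ 2 := rep_k σ l1 l2 t x

lemma star_kOp (l1 l2 : Z.A) (t : ℚ) : star (kOp l1 l2 t) = kOp l1 l2 t := by simp [kOp]

lemma cut_norm {g l1 l2 : Z.A} {t : ℚ} {ε : ℝ} (hε : 0 < ε) (t1 : (t : ℝ) < (ε / 2) ^ 2) (t0 : (0 : ℝ) < t)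
    (pg : IsStarProjection g) (g1 : ∀ x, (g : B0) x = x → (⟪x, (kOp l1 l2 t : B0) x⟫_ℂ).re ≤ 0) (l : Z.A)
    (hl : ∀ x, ‖(l : B0) x‖ ^ 2 ≤ ‖(l1 : B0) x‖ ^ 2 + ‖(l2 : B0) x‖ ^ 2) : ‖l * g‖ ≤ ε / 2 := by
  refine ContinuousLinearMap.opNorm_le_bound ((l * g : Z.A) : B0) (by positivity) fun x => ?_
  have a1 := g1 _ (app_eq pg.isIdempotentElem.eq x)
  have a2 : (⟪(g : B0) x, (kOp l1 l2 t : B0) ((g : B0) x)⟫_ℂ).re =
    ‖(l1 : B0) ((g : B0) x)‖ ^ 2 + ‖(l2 : B0) ((g : B0) x)‖ ^ 2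
    - t * ‖(g : B0) x‖ ^ 2 := rep_k' Z.A.subtype l1 l2 t ((g : B0) x)
  have a3 := (g : B0).le_of_opNorm_le (pnorm pg) x
  have a4 : ‖(g : B0) x‖ ^ 2 ≤ ‖x‖ ^ 2 := by rw [one_mul] at a3; gcongr
  refine le_of_sq_le_sq ?_ (by positivity)
  show ‖(l : B0) ((g : B0) x)‖ ^ 2 ≤ _
  have a5 := hl ((g : B0) x)
  rw [mul_pow]
  nlinarith [sq_nonneg ‖x‖]

lemma rep_y {f g : Z.A} (k : Z.A) (t : ℚ) (pf : IsStarProjection f) (pg : IsStarProjection g) (x : H) :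
    (⟪x, σ (f * k * f + (((t : ℚ) : ℂ) + ((0 : ℚ) : ℂ) * Complex.I) • g) x⟫_ℂ).re
      = (⟪x, σ (f * k * f) x⟫_ℂ).re + t * ‖σ g x‖ ^ 2 := by
  rw [map_add, map_smul, add_apply, inner_add_right, smul_apply, inner_smul_right, ← proj_norm_sq (pg.map σ)]
  simp

lemma cut_pos {f g l1 l2 : Z.A} {t : ℚ} (pf : IsStarProjection f) (pg : IsStarProjection g) (fg : f * g = g)
    (cg : g * (f * kOp l1 l2 t * f) = (f * kOp l1 l2 t * f) * g)
    (g2 : ∀ x, (f : B0) x = x → (g : B0) x = 0 → 0 ≤ (⟪x, (kOp l1 l2 t : B0) x⟫_ℂ).re) :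
    0 ≤ ((f * kOp l1 l2 t * f + (((t : ℚ) : ℂ) + ((0 : ℚ) : ℂ) * Complex.I) • g : Z.A) : B0) := by
  have gf := comm_of_le pf pg fg
  have p2 : IsStarProjection (f - g) := pg.sub_of_mul_eq_right pf fg
  have sy : star (f * kOp l1 l2 t * f + (((t : ℚ) : ℂ) + ((0 : ℚ) : ℂ) * Complex.I) • g) =
      f * kOp l1 l2 t * f + (((t : ℚ) : ℂ) + ((0 : ℚ) : ℂ) * Complex.I) • g := by
    simp [star_kOp, pf.isSelfAdjoint.star_eq, pg.isSelfAdjoint.star_eq, mul_assoc]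
  refine nonneg_of_re (congrArg Subtype.val sy) fun x => ?_
  have a1 : 0 ≤ (⟪Z.A.subtype (f - g) x, Z.A.subtype (kOp l1 l2 t) (Z.A.subtype (f - g) x)⟫_ℂ).re :=
    g2 (((f - g : Z.A) : B0) x) (app_eq (by rw [mul_sub, fg, pf.isIdempotentElem.eq]) x)
    (by rw [app_eq (c := 0) (by rw [mul_sub, gf, pg.isIdempotentElem.eq, sub_self])]; rfl)
  have a2 := rep_k' Z.A.subtype l1 l2 t (Z.A.subtype g x)
  refine le_of_le_of_eq ?_ (rep_y Z.A.subtype (kOp l1 l2 t) t pf pg x).symm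
  rw [main_alg pf pg (kOp l1 l2 t) rfl fg cg, map_add, add_apply, inner_add_right, Complex.add_re, rep_cj _ pg,
    rep_cj _ p2, a2]
  nlinarith [sq_nonneg ‖Z.A.subtype l1 (Z.A.subtype g x)‖, sq_nonneg ‖Z.A.subtype l2 (Z.A.subtype g x)‖]

lemma cut_sum {g a' l1 l2 : Z.A} {ε : ℝ} (pg : IsStarProjection g) (hsum : a' = l1 + star l2) (n1 : ‖l1 * g‖ ≤ ε / 2)
    (n2 : ‖l2 * g‖ ≤ ε / 2) : ‖g * a' * g‖ ≤ ε := by
  have e : g * a' * g = g * (l1 * g) + star (l2 * g) * g := by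
    rw [hsum, star_mul, pg.isSelfAdjoint.star_eq]; noncomm_ring
  have a1 : ‖g * (l1 * g)‖ ≤ ε / 2 := (norm_mul_le _ _).trans (by nlinarith [pnorm pg, norm_nonneg (l1 * g)])
  have a2 : ‖star (l2 * g) * g‖ ≤ ε / 2 := by
    refine (norm_mul_le _ _).trans ?_
    have : ‖star (l2 * g)‖ = ‖l2 * g‖ := norm_star ((l2 * g : Z.A) : B0)
    rw [this]
    nlinarith [pnorm pg, norm_nonneg (l2 * g)]
  rw [e]
  linarith [norm_add_le (g * (l1 * g)) (star (l2 * g) * g)]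

lemma cut_close {f g l1 l2 : Z.A} {t : ℚ} {ε : ℝ} (hε : 0 < ε) (t0 : (0 : ℝ) < t) (pf : IsStarProjection f)
    (pg : IsStarProjection g) (fg : f * g = g) {ξ : H} (h1 : ‖ξ‖ = 1) (hf : σ f ξ = ξ)
    (u1 : ‖σ l1 ξ‖ < ε * √t / 2) (u2 : ‖σ l2 ξ‖ < ε * √t / 2)
    (e : ∃ z : Z.A, f * kOp l1 l2 t * f + (((t : ℚ) : ℂ) + ((0 : ℚ) : ℂ) * Complex.I) • g = star z * z) :
    ‖ξ - σ g ξ‖ ≤ ε := by
  obtain ⟨z, e⟩ := e
  have b1 := rep_y σ (kOp l1 l2 t) t pf pg ξ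
  rw [e, rep_sq, rep_cj σ pf, hf, rep_k', h1] at b1
  have b3 := proj_pyth (pf.map σ) (pg.map σ) (by rw [← map_mul, fg]) ξ
  rw [hf, h1] at b3
  have c1 : ‖σ l1 ξ‖ ^ 2 ≤ (ε * √t / 2) ^ 2 := by gcongr
  have c2 : ‖σ l2 ξ‖ ^ 2 ≤ (ε * √t / 2) ^ 2 := by gcongr
  rw [div_pow, mul_pow, Real.sq_sqrt t0.le] at c1 c2
  refine le_of_sq_le_sq ?_ hε.le
  rw [b3]
  refine le_of_mul_le_mul_left ?_ t0
  nlinarith [mul_pos t0 (pow_pos hε 2), sq_nonneg ‖σ z ξ‖]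

lemma main_cut (hc : ∀ a, ‖σ a‖ ≤ ‖a‖) (hirr : Irr σ) {f a : Z.A} (mf : (f : B0) ∈ Z.S) (pf : IsStarProjection f)
    (ma : (a : B0) ∈ Z.S) {ξ : H} (h1 : ‖ξ‖ = 1) (hf : σ f ξ = ξ) {ε : ℝ} (hε : 0 < ε) :
    ∃ g : Z.A, (g : B0) ∈ Z.S ∧ IsStarProjection g ∧ f * g = g ∧ ‖ξ - σ g ξ‖ ≤ ε ∧
      ∃ c : ℂ, ‖g * (a - c • 1) * g‖ ≤ ε := by
  obtain ⟨t, t0, t1⟩ := exists_rat_btwn (show 0 < (ε / 2) ^ 2 by positivity)
  obtain ⟨h, mh, p, q, u1, u2⟩ := pick σ hc hirr pf a h1 hf (δ := ε * √t / 2) (by positivity)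
  have ma' : ((f * (a - ((p : ℂ) + (q : ℂ) * Complex.I) • 1) * f : Z.A) : B0) ∈ Z.S :=
    mul_mem_S (mul_mem_S mf (sub_mem_S ma (smul_mem_S one_mem_S p q))) mf
  generalize (p : ℂ) + (q : ℂ) * Complex.I = c at ma' u1 u2
  generalize ha' : f * (a - c • 1) * f = a' at ma' u1 u2
  have m1 : (((1 - h) * a' : Z.A) : B0) ∈ Z.S := mul_mem_S (sub_mem_S one_mem_S mh) ma'
  have m2 : ((star (h * a') : Z.A) : B0) ∈ Z.S := star_mem_S (mul_mem_S mh ma')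
  have hsum : a' = (1 - h) * a' + star (star (h * a')) := by rw [star_star]; noncomm_ring
  generalize (1 - h) * a' = l1 at m1 u1 hsum
  generalize star (h * a') = l2 at m2 u2 hsum
  have mk : (kOp l1 l2 t : B0) ∈ Z.S := sub_mem_S (add_mem_S (mul_mem_S (star_mem_S m1) m1)
    (mul_mem_S (star_mem_S m2) m2)) (smul_mem_S one_mem_S _ _)
  obtain ⟨g, mg, pg, fg, cg, g1, g2⟩ := spec' mf mk pf (star_kOp _ _ _)
  have n1 := cut_norm hε t1 t0 pg g1 l1 fun x => le_add_of_nonneg_right (sq_nonneg _)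
  have n2 := cut_norm hε t1 t0 pg g1 l2 fun x => le_add_of_nonneg_left (sq_nonneg _)
  have gf := comm_of_le pf pg fg
  refine ⟨g, mg, pg, fg, ?_, c, ?_⟩
  · exact cut_close σ hε t0 pf pg fg h1 hf u1 u2
      (sqrt' (add_mem_S (mul_mem_S (mul_mem_S mf mk) mf) (smul_mem_S mg t 0)) (cut_pos pf pg fg cg g2))
  · have e : g * (a - c • 1) * g = g * a' * g := by
      calc g * (a - c • 1) * g = (g * f) * (a - c • 1) * (f * g) := by rw [gf, fg]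
        _ = g * a' * g := by simp only [← ha', mul_assoc]
    rw [e]
    exact cut_sum pg hsum n1 n2

lemma main_step (hc : ∀ a, ‖σ a‖ ≤ ‖a‖) (hirr : Irr σ) (hfin : ∀ q : Z.A, FinRk (q : B0) → σ q = 0) {f a : Z.A}
    (mf : (f : B0) ∈ Z.S) (pf : IsStarProjection f) (ma : (a : B0) ∈ Z.S) {ξ : H} (h1 : ‖ξ‖ = 1) (hf : σ f ξ = ξ)
    {ε : ℝ} (hε : 0 < ε) : ∃ (g : Z.A) (η : H), ((g : B0) ∈ Z.S ∧ IsStarProjection g ∧ ‖η‖ = 1 ∧ σ g η = η) ∧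
      ‖ξ - η‖ ≤ ε ∧ Step f g a ε := by
  obtain ⟨δ, d0, d1, d2⟩ : ∃ δ : ℝ, 0 < δ ∧ δ ≤ ε / 4 ∧ δ ≤ 1 / 4 := ⟨min (ε / 4) (1 / 4), by positivity,
    min_le_left _ _, min_le_right _ _⟩
  obtain ⟨g, mg, pg, fg, hg, c, hT⟩ := main_cut σ hc hirr mf pf ma h1 hf d0
  have ig : ¬ FinRk (g : B0) := fun h => by
    rw [hfin g h, zero_apply, sub_zero, h1] at hg; linarith
  obtain ⟨s, ms, s1, s2, s3⟩ := small σ mg pg ig ξ d0
  have pr := proj_iso s1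
  have gr : g * (s * star s) = s * star s := by rw [← mul_assoc, s2]
  have p2 : IsStarProjection (g - s * star s) := pr.sub_of_mul_eq_right pg gr
  have m2 : ((g - s * star s : Z.A) : B0) ∈ Z.S := Z.S.sub_mem mg (Z.S.mul_mem ms (Z.star_mem _ ms))
  have gg : g * (g - s * star s) = g - s * star s := by rw [mul_sub, gr, pg.isIdempotentElem.eq]
  have z : (g - s * star s) * s = 0 := by rw [sub_mul, s2, mul_assoc, s1, mul_one, sub_self]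
  have hv : ‖ξ - σ (g - s * star s) ξ‖ ≤ 2 * δ := by
    rw [map_sub, sub_apply, ← sub_add]
    linarith [norm_add_le (ξ - σ g ξ) (σ (s * star s) ξ)]
  generalize g - s * star s = g' at *
  have fg' : f * g' = g' := by rw [← gg, ← mul_assoc, fg]
  have fx : σ g' (σ g' ξ) = σ g' ξ := by rw [← rep_mul, p2.isIdempotentElem.eq]
  generalize σ g' ξ = v at *
  have n1 := abs_le.mp ((abs_norm_sub_norm_le ξ v).trans hv)
  rw [h1] at n1
  have v0 : 0 < ‖v‖ := by linarith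
  refine ⟨g', ((‖v‖⁻¹ : ℝ) : ℂ) • v, ⟨m2, p2, by rw [norm_smul]; simp [v0.ne'], by rw [map_smul, fx]⟩, ?_, fg',
    finish mf m2 pf p2 fg' s1 (by rw [← s2, ← mul_assoc, fg]) z, c,
    ((cut_le p2 p2 gg (comm_of_le pg p2 gg) _).trans hT).trans (by linarith)⟩
  have e : ‖v - ((‖v‖⁻¹ : ℝ) : ℂ) • v‖ = |‖v‖ - 1| := by
    have : v - ((‖v‖⁻¹ : ℝ) : ℂ) • v = ((1 - ‖v‖⁻¹ : ℝ) : ℂ) • v := by push_cast; rw [sub_smul, one_smul]
    rw [this, norm_smul, Complex.norm_real, Real.norm_eq_abs, ← abs_norm v, ← abs_mul, abs_norm, sub_mul,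
      inv_mul_cancel₀ v0.ne', one_mul]
  have := norm_sub_le_norm_sub_add_norm_sub ξ v (((‖v‖⁻¹ : ℝ) : ℂ) • v)
  have a : |‖v‖ - 1| ≤ 2 * δ := abs_le.mpr ⟨by linarith, by linarith⟩
  linarith

theorem good_main (hc : ∀ a, ‖σ a‖ ≤ ‖a‖) (hirr : Irr σ) (hfin : ∀ q : Z.A, FinRk (q : B0) → σ q = 0) (ξ0 : H)
    (h0 : ‖ξ0‖ = 1) : ∃ (G : Good Z) (ξ : H), ‖ξ‖ = 1 ∧ ∀ n, σ (G.f n) ξ = ξ := by
  let X := {p : Z.A × H // (p.1 : B0) ∈ Z.S ∧ IsStarProjection p.1 ∧ ‖p.2‖ = 1 ∧ σ p.1 p.2 = p.2}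
  obtain ⟨G, x, hx, hR⟩ := build (X := X) (fun x => x.1.1) (fun x => x.2.2.1)
    ⟨(1, ξ0), Z.S.one_mem, .one _, h0, by simp⟩ rfl (fun ε x y => ‖x.1.2 - y.1.2‖ ≤ ε) (by
    rintro ⟨⟨f, ξ⟩, hf, pf, h1, h2⟩ a ha ε hε
    obtain ⟨g, η, a1, a2, a3⟩ := main_step σ hc hirr hfin hf pf ha h1 h2 hε
    exact ⟨⟨(g, η), a1⟩, a2, a3⟩)
  have hC : CauchySeq fun n => (x n).1.2 :=
    cauchySeq_of_le_geometric (1 / 2) 1 (by norm_num) fun n => by rw [dist_eq_norm, one_mul]; exact hR n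
  obtain ⟨ξ, hξ⟩ := cauchySeq_tendsto_of_complete hC
  refine ⟨G, ξ, tendsto_nhds_unique hξ.norm (tendsto_const_nhds.congr fun n => (x n).2.2.2.1.symm), fun m => ?_⟩
  refine tendsto_nhds_unique (((σ (G.f m)).continuous.tendsto ξ).comp hξ) (hξ.congr' ?_)
  filter_upwards [eventually_ge_atTop m] with n hn
  have := (x n).2.2.2.2
  simp only [Function.comp]
  rw [← this, ← rep_mul, ← hx, G.mono hn]

end Rep

end Vale.Agent.P070h8
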